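import Vale.Agent.P358.AD.Chan

/-!
Positivity and trace of the block map `OmB` / `NM`.
-/

namespace Vale.Agent.P358
open Matrix
open scoped ComplexOrder

variable {X Y : Type*} [Fintype X] [DecidableEq X] [Fintype Y] [DecidableEq Y]

/-- `OmB` of a positive semidefinite block matrix is positive semidefinite: it equals
`(K₀ ⊗ 1) w (K₀ ⊗ 1)ᴴ + (K₁ ⊗ 1) w (K₁ ⊗ 1)ᴴ` with `K₀ ⊗ 1 = fromBlocks 1 0 0 (√(1-γ) • 1)` and
`K₁ ⊗ 1 = fromBlocks 0 (√γ • 1) 0 0`. -/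
theorem OmB_posSemidef (γ : ℝ) (h0 : 0 ≤ γ) (h1 : γ ≤ 1) {P B C Q : Matrix Y Y ℂ}
    (hw : (fromBlocks P B C Q).PosSemidef) : (OmB γ P B C Q).PosSemidef := by
  have hs1 : ((Real.sqrt (1 - γ) : ℝ) : ℂ) * ((Real.sqrt (1 - γ) : ℝ) : ℂ) = ((1 - γ : ℝ) : ℂ) := by
    rw [← Complex.ofReal_mul, Real.mul_self_sqrt (by linarith)]
  have hs2 : ((Real.sqrt γ : ℝ) : ℂ) * ((Real.sqrt γ : ℝ) : ℂ) = ((γ : ℝ) : ℂ) := by
    rw [← Complex.ofReal_mul, Real.mul_self_sqrt h0]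
  have key : OmB γ P B C Q =
      fromBlocks (1 : Matrix Y Y ℂ) 0 0 (((Real.sqrt (1 - γ) : ℝ) : ℂ) • (1 : Matrix Y Y ℂ)) *
          fromBlocks P B C Q *
          (fromBlocks (1 : Matrix Y Y ℂ) 0 0 (((Real.sqrt (1 - γ) : ℝ) : ℂ) • (1 : Matrix Y Y ℂ)))ᴴ +
        fromBlocks (0 : Matrix Y Y ℂ) (((Real.sqrt γ : ℝ) : ℂ) • (1 : Matrix Y Y ℂ)) 0 0 *
          fromBlocks P B C Q *
          (fromBlocks (0 : Matrix Y Y ℂ) (((Real.sqrt γ : ℝ) : ℂ) • (1 : Matrix Y Y ℂ)) 0 0)ᴴ := by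
    simp only [fromBlocks_conjTranspose, fromBlocks_multiply, Matrix.zero_mul, Matrix.mul_zero,
      add_zero, zero_add, conjTranspose_zero, conjTranspose_one, conjTranspose_smul, Matrix.one_mul,
      Matrix.mul_one, Matrix.smul_mul, Matrix.mul_smul, fromBlocks_add, smul_smul, RCLike.star_def,
      Complex.conj_ofReal, hs1, hs2, smul_zero]
    rfl
  rw [key]
  exact (hw.mul_mul_conjTranspose_same _).add (hw.mul_mul_conjTranspose_same _)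

theorem OmB_trace (γ : ℝ) (P B C Q : Matrix Y Y ℂ) :
    (OmB γ P B C Q).trace = P.trace + Q.trace := by
  unfold OmB
  rw [trace_fromBlocks', trace_add, trace_smul, trace_smul]
  simp only [smul_eq_mul]
  push_cast
  ring

theorem NM_isState (γ : ℝ) (h0 : 0 ≤ γ) (h1 : γ ≤ 1) {M : Matrix X X ℂ → Matrix Y Y ℂ}
    (hM : GoodMap M) {ρ : Matrix (X ⊕ X) (X ⊕ X) ℂ} (hρ : IsState ρ) : IsState (NM γ M ρ) := by
  have hρ' : (fromBlocks ρ.toBlocks₁₁ ρ.toBlocks₁₂ ρ.toBlocks₂₁ ρ.toBlocks₂₂).PosSemidef := by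
    rw [fromBlocks_toBlocks]; exact hρ.1
  refine ⟨OmB_posSemidef γ h0 h1 (hM.block_posSemidef hρ'), ?_⟩
  unfold NM
  rw [OmB_trace, hM.trace, hM.trace, ← trace_fromBlocks', fromBlocks_toBlocks, hρ.2]

end Vale.Agent.P358
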