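import Vale.Agent.P358.AD.Bdd2

/-!
Second bracket of the additivity argument: the ensemble of normalised diagonal blocks.
-/

namespace Vale.Agent.P358
open Matrix
open scoped ComplexOrder

variable {X Y : Type*} [Fintype X] [DecidableEq X] [Fintype Y] [DecidableEq Y]

/-- normalisation of a positive semidefinite matrix, with a fallback state when it vanishes. -/
noncomputable def nrm (A σ : Matrix X X ℂ) : Matrix X X ℂ :=
  if A.trace.re = 0 then σ else ((A.trace.re)⁻¹ : ℂ) • A

theorem nrm_isState {A σ : Matrix X X ℂ} (hA : A.PosSemidef) (hσ : IsState σ) :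
    IsState (nrm A σ) := by
  unfold nrm
  split_ifs with h
  · exact hσ
  · obtain ⟨h1, h2⟩ := trace_eq_ofReal hA
    have hc : (0 : ℂ) ≤ ((A.trace.re : ℂ))⁻¹ := by
      rw [← Complex.ofReal_inv]
      exact_mod_cast inv_nonneg.2 h2
    refine ⟨hA.smul hc, ?_⟩
    rw [Matrix.trace_smul, smul_eq_mul]
    nth_rewrite 2 [h1]
    exact inv_mul_cancel₀ (by exact_mod_cast h)

/-- `t • M (nrm A σ) = M A` for `t = tr A` (if `t = 0` then `A = 0`). -/
theorem smul_map_nrm {M : Matrix X X ℂ → Matrix Y Y ℂ} (hM : GoodMap M) {A σ : Matrix X X ℂ}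
    (hA : A.PosSemidef) : ((A.trace.re : ℝ) : ℂ) • M (nrm A σ) = M A := by
  unfold nrm
  split_ifs with h
  · rw [h, eq_zero_of_trace_re_eq_zero hA h, hM.map_zero]
    simp
  · rw [hM.map_smul, smul_smul, mul_inv_cancel₀ (by exact_mod_cast h), one_smul]

/-- `t * St (M (nrm A σ)) = St (M A) - negMulLog t` for `t = tr A` (`St_smul`, `GoodMap.trace`). -/
theorem mul_St_map_nrm {M : Matrix X X ℂ → Matrix Y Y ℂ} (hM : GoodMap M) {A σ : Matrix X X ℂ}
    (hA : A.PosSemidef) :
    A.trace.re * St (M (nrm A σ)) = St (M A) - Real.negMulLog A.trace.re := by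
  by_cases h : A.trace.re = 0
  · rw [h, eq_zero_of_trace_re_eq_zero hA h, hM.map_zero, St_zero]
    simp
  · obtain ⟨h1, h2⟩ := trace_eq_ofReal hA
    have hn : nrm A σ = ((A.trace.re)⁻¹ : ℂ) • A := by
      unfold nrm
      rw [if_neg h]
    have hc : (0 : ℂ) ≤ ((A.trace.re : ℂ))⁻¹ := by
      rw [← Complex.ofReal_inv]
      exact_mod_cast inv_nonneg.2 h2
    have hpsd : (nrm A σ).PosSemidef := by
      rw [hn]; exact hA.smul hc
    have htr : (nrm A σ).trace = 1 := by
      rw [hn, Matrix.trace_smul, smul_eq_mul]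
      nth_rewrite 2 [h1]
      exact inv_mul_cancel₀ (by exact_mod_cast h)
    have h3 := St_smul (M (nrm A σ)) (hM.posSemidef hpsd) A.trace.re h2
    rw [smul_map_nrm hM hA, hM.trace, htr] at h3
    rw [h3]
    simp

/-- Second bracket: the ensemble `{q a * tr (P a), nrm (P a) (P a + Q a)} ∪
{q a * tr (Q a), nrm (Q a) (P a + Q a)}` (index type `Fin k ⊕ Fin k`), `St_holevo_le_capacity`. -/
theorem second_bracket {M : Matrix X X ℂ → Matrix Y Y ℂ} (hM : GoodMap M) {k : ℕ} (q : Fin k → ℝ)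
    (P Q : Fin k → Matrix X X ℂ) (hq : ∀ a, 0 ≤ q a) (hq1 : ∑ a, q a = 1)
    (hP : ∀ a, (P a).PosSemidef) (hQ : ∀ a, (Q a).PosSemidef)
    (htr : ∀ a, (P a).trace.re + (Q a).trace.re = 1) :
    St (∑ a, (q a : ℂ) • (M (P a) + M (Q a)))
      - ∑ a, q a * (St (M (P a)) - Real.negMulLog (P a).trace.re
          + (St (M (Q a)) - Real.negMulLog (Q a).trace.re)) ≤ holevoCapacity M * Real.log 2 := by
  have hσ : ∀ a, IsState (P a + Q a) := by
    intro a
    refine ⟨(hP a).add (hQ a), ?_⟩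
    rw [Matrix.trace_add, (trace_eq_ofReal (hP a)).1, (trace_eq_ofReal (hQ a)).1,
      ← Complex.ofReal_add, htr a]
    simp
  have h := St_holevo_le_capacity hM (ι := Fin k ⊕ Fin k)
    (Sum.elim (fun a => q a * (P a).trace.re) (fun a => q a * (Q a).trace.re))
    (Sum.elim (fun a => nrm (P a) (P a + Q a)) (fun a => nrm (Q a) (P a + Q a)))
    (by
      rintro (a | a)
      · exact mul_nonneg (hq a) (trace_eq_ofReal (hP a)).2
      · exact mul_nonneg (hq a) (trace_eq_ofReal (hQ a)).2)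
    (by
      simp only [Fintype.sum_sum_type, Sum.elim_inl, Sum.elim_inr]
      rw [← Finset.sum_add_distrib, ← hq1]
      refine Finset.sum_congr rfl fun a _ => ?_
      rw [← mul_add, htr a, mul_one])
    (by
      rintro (a | a) _
      · exact nrm_isState (hP a) (hσ a)
      · exact nrm_isState (hQ a) (hσ a))
  simp only [Fintype.sum_sum_type, Sum.elim_inl, Sum.elim_inr] at h
  have e1 : ∀ a, ((q a * (P a).trace.re : ℝ) : ℂ) • M (nrm (P a) (P a + Q a)) =
      (q a : ℂ) • M (P a) := by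
    intro a
    rw [Complex.ofReal_mul, ← smul_smul, smul_map_nrm hM (hP a)]
  have e2 : ∀ a, ((q a * (Q a).trace.re : ℝ) : ℂ) • M (nrm (Q a) (P a + Q a)) =
      (q a : ℂ) • M (Q a) := by
    intro a
    rw [Complex.ofReal_mul, ← smul_smul, smul_map_nrm hM (hQ a)]
  have e3 : ∀ a, q a * (P a).trace.re * St (M (nrm (P a) (P a + Q a))) =
      q a * (St (M (P a)) - Real.negMulLog (P a).trace.re) := by
    intro a
    rw [mul_assoc, mul_St_map_nrm hM (hP a)]
  have e4 : ∀ a, q a * (Q a).trace.re * St (M (nrm (Q a) (P a + Q a))) =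
      q a * (St (M (Q a)) - Real.negMulLog (Q a).trace.re) := by
    intro a
    rw [mul_assoc, mul_St_map_nrm hM (hQ a)]
  simp only [e1, e2, e3, e4] at h
  rw [← Finset.sum_add_distrib, ← Finset.sum_add_distrib] at h
  simp only [← smul_add, ← mul_add] at h
  exact h

end Vale.Agent.P358
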