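import Vale.Agent.P358.AD.StTool

/-!
Marginal bound for the entropy of a block matrix (subadditivity combined with dephasing of the
qubit factor).
-/

namespace Vale.Agent.P358
open Matrix
open scoped ComplexOrder

variable {X : Type*} [Fintype X] [DecidableEq X]

theorem neg_mul_log_shift_le {t e c : ℝ} (ht : 0 ≤ t) (he : 0 < e) (hc : 0 ≤ c) :
    -(t * Real.log ((t + e) / (1 + c))) ≤ Real.negMulLog t + t * c := by
  rcases ht.eq_or_lt with rfl | ht'
  · simp
  · rw [Real.log_div (by positivity) (by positivity)]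
    have h1 : Real.log t ≤ Real.log (t + e) := Real.log_le_log ht' (by linarith)
    have h2 : Real.log (1 + c) ≤ c := by
      have := Real.log_le_sub_one_of_pos (show 0 < 1 + c by positivity)
      linarith
    unfold Real.negMulLog
    nlinarith

omit [Fintype X] [DecidableEq X] in
theorem posSemidef_block₁₁ {Y : Type*} (A : Matrix X X ℂ) (B : Matrix X Y ℂ)
    (C : Matrix Y X ℂ) (D : Matrix Y Y ℂ) (h : (fromBlocks A B C D).PosSemidef) : A.PosSemidef := by
  have := h.submatrix (Sum.inl : X → X ⊕ Y)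
  exact this

omit [Fintype X] [DecidableEq X] in
theorem posSemidef_block₂₂ {Y : Type*} (A : Matrix X X ℂ) (B : Matrix X Y ℂ)
    (C : Matrix Y X ℂ) (D : Matrix Y Y ℂ) (h : (fromBlocks A B C D).PosSemidef) : D.PosSemidef := by
  have := h.submatrix (Sum.inr : Y → X ⊕ Y)
  exact this

theorem St_marginal_le (W00 W01 W10 W11 : Matrix X X ℂ)
    (hW : (fromBlocks W00 W01 W10 W11).PosSemidef)
    (htr : (fromBlocks W00 W01 W10 W11).trace = 1) :
    St (fromBlocks W00 W01 W10 W11) ≤
      Real.negMulLog W00.trace.re + Real.negMulLog W11.trace.re + St (W00 + W11) := by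
  have h00 := posSemidef_block₁₁ _ _ _ _ hW
  have h11 := posSemidef_block₂₂ _ _ _ _ hW
  have hσ : (W00 + W11).PosSemidef := h00.add h11
  obtain ⟨U, hU1, hU2, hσeq⟩ := exists_spectral (W00 + W11) hσ.1
  set μ := hσ.1.eigenvalues with hμ
  have hμ0 : ∀ y, 0 ≤ μ y := fun y => hσ.eigenvalues_nonneg y
  set t0 := W00.trace.re with ht0
  set t1 := W11.trace.re with ht1
  have ht0n : 0 ≤ t0 := (Complex.le_def.1 h00.trace_nonneg).1
  have ht1n : 0 ≤ t1 := (Complex.le_def.1 h11.trace_nonneg).1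
  have hsum : t0 + t1 = 1 := by
    rw [trace_fromBlocks'] at htr
    have := congrArg Complex.re htr
    simpa using this
  have hμsum : ∑ y, μ y = 1 := by
    rw [hμ, ← trace_re_eq_sum, Matrix.trace_add, Complex.add_re]
    exact hsum
  set V : Matrix (X ⊕ X) (X ⊕ X) ℂ := fromBlocks Uᴴ 0 0 Uᴴ with hV
  have hVV : V * Vᴴ = 1 := by
    rw [hV, fromBlocks_conjTranspose, fromBlocks_multiply]
    simp [hU2]
  have hW'eq : V * fromBlocks W00 W01 W10 W11 * Vᴴ =
      fromBlocks (Uᴴ * W00 * U) (Uᴴ * W01 * U) (Uᴴ * W10 * U) (Uᴴ * W11 * U) := by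
    rw [hV, fromBlocks_conjTranspose, fromBlocks_multiply, fromBlocks_multiply]
    simp
  have hW' : (V * fromBlocks W00 W01 W10 W11 * Vᴴ).PosSemidef := hW.mul_mul_conjTranspose_same V
  have hSt : St (V * fromBlocks W00 W01 W10 W11 * Vᴴ) = St (fromBlocks W00 W01 W10 W11) :=
    St_unitary_conj _ V hW hVV
  have htr' : (V * fromBlocks W00 W01 W10 W11 * Vᴴ).trace = 1 := by
    rw [Matrix.trace_mul_comm, ← Matrix.mul_assoc, mul_eq_one_comm.1 hVV, Matrix.one_mul, htr]
  set a : X → ℝ := fun y => ((Uᴴ * W00 * U) y y).re with ha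
  set b : X → ℝ := fun y => ((Uᴴ * W11 * U) y y).re with hb
  have hasum : ∑ y, a y = t0 := by
    have : (Uᴴ * W00 * U).trace = W00.trace := by
      rw [Matrix.trace_mul_comm, ← Matrix.mul_assoc, hU1, Matrix.one_mul]
    rw [ht0, ← this, Matrix.trace, Complex.re_sum]
    rfl
  have hbsum : ∑ y, b y = t1 := by
    have : (Uᴴ * W11 * U).trace = W11.trace := by
      rw [Matrix.trace_mul_comm, ← Matrix.mul_assoc, hU1, Matrix.one_mul]
    rw [ht1, ← this, Matrix.trace, Complex.re_sum]
    rfl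
  have hab : ∀ y, a y + b y = μ y := by
    intro y
    have h1 : Uᴴ * W00 * U + Uᴴ * W11 * U = diagonal (fun k => ((μ k : ℝ) : ℂ)) := by
      rw [← Matrix.add_mul, ← Matrix.mul_add, hσeq, ← Matrix.mul_assoc, ← Matrix.mul_assoc, hU2,
        Matrix.one_mul, Matrix.mul_assoc, hU2, Matrix.mul_one]
    have h2 := congrFun (congrFun h1 y) y
    rw [Matrix.add_apply, diagonal_apply_eq] at h2
    have h3 := congrArg Complex.re h2
    simpa using h3
  rw [St_of_herm (W00 + W11) hσ.1, ← hSt, St_of_herm _ hW'.1]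
  apply le_of_forall_pos_le_add
  intro δ hδ
  set d : ℝ := (Fintype.card X : ℝ) with hd
  have hd0 : 0 ≤ d := Nat.cast_nonneg _
  set e : ℝ := δ / (2 + d) with he
  have he0 : 0 < e := by positivity
  set τ0 : ℝ := (t0 + e) / (1 + 2 * e) with hτ0
  set τ1 : ℝ := (t1 + e) / (1 + 2 * e) with hτ1
  set m : X → ℝ := fun y => (μ y + e) / (1 + d * e) with hm
  have hτ0p : 0 < τ0 := by positivity
  have hτ1p : 0 < τ1 := by positivity
  have hmp : ∀ y, 0 < m y := fun y => by have := hμ0 y; positivity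
  have hmsum : ∑ y, m y = 1 := by
    simp only [hm]
    rw [← Finset.sum_div, Finset.sum_add_distrib, hμsum, Finset.sum_const, Finset.card_univ,
      nsmul_eq_mul, div_self (by positivity)]
  have hup := entropy_upper _ hW' htr' (Sum.elim (fun y => τ0 * m y) (fun y => τ1 * m y))
    (by rintro (y | y); exacts [mul_pos hτ0p (hmp y), mul_pos hτ1p (hmp y)])
    (by
      simp only [Fintype.sum_sum_type, Sum.elim_inl, Sum.elim_inr]
      rw [← Finset.mul_sum, ← Finset.mul_sum, hmsum, hτ0, hτ1, mul_one, mul_one, ← add_div,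
        div_le_one (by positivity)]
      linarith)
  refine hup.trans ?_
  simp only [Fintype.sum_sum_type, Sum.elim_inl, Sum.elim_inr]
  have e1 : ∀ y, ((V * fromBlocks W00 W01 W10 W11 * Vᴴ) (Sum.inl y) (Sum.inl y)).re = a y := by
    intro y; rw [hW'eq]; rfl
  have e2 : ∀ y, ((V * fromBlocks W00 W01 W10 W11 * Vᴴ) (Sum.inr y) (Sum.inr y)).re = b y := by
    intro y; rw [hW'eq]; rfl
  simp only [e1, e2]
  have e3 : ∑ y, a y * Real.log (τ0 * m y) + ∑ y, b y * Real.log (τ1 * m y) =
      t0 * Real.log τ0 + t1 * Real.log τ1 + ∑ y, μ y * Real.log (m y) := by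
    rw [← hasum, ← hbsum, Finset.sum_mul, Finset.sum_mul, ← Finset.sum_add_distrib,
      ← Finset.sum_add_distrib, ← Finset.sum_add_distrib]
    refine Finset.sum_congr rfl fun y _ => ?_
    rw [Real.log_mul hτ0p.ne' (hmp y).ne', Real.log_mul hτ1p.ne' (hmp y).ne', ← hab y]
    ring
  rw [e3]
  have b0 := neg_mul_log_shift_le ht0n he0 (show 0 ≤ 2 * e by positivity)
  have b1 := neg_mul_log_shift_le ht1n he0 (show 0 ≤ 2 * e by positivity)
  have b2 : -∑ y, μ y * Real.log (m y) ≤ ∑ y, Real.negMulLog (μ y) + d * e := by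
    have : ∀ y, -(μ y * Real.log (m y)) ≤ Real.negMulLog (μ y) + μ y * (d * e) := fun y =>
      neg_mul_log_shift_le (hμ0 y) he0 (by positivity)
    calc -∑ y, μ y * Real.log (m y) = ∑ y, -(μ y * Real.log (m y)) := by
          rw [Finset.sum_neg_distrib]
      _ ≤ ∑ y, (Real.negMulLog (μ y) + μ y * (d * e)) := Finset.sum_le_sum fun y _ => this y
      _ = ∑ y, Real.negMulLog (μ y) + d * e := by
          rw [Finset.sum_add_distrib, ← Finset.sum_mul, hμsum, one_mul]
  have hδe : δ = 2 * e + d * e := by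
    rw [he]; field_simp
  have : t0 * (2 * e) + t1 * (2 * e) = 2 * e := by rw [← add_mul, hsum, one_mul]
  linarith

end Vale.Agent.P358
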