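import Vale.Agent.P358.AD.StTool
import Vale.Agent.P358.AD.StMarg
import Vale.Agent.P358.Channel

/-!
Channels given by Kraus operators, and the block form of `(amplitude damping) ⊗ M`.
-/

namespace Vale.Agent.P358
open Matrix
open scoped ComplexOrder

variable {X Y : Type*} [Fintype X] [DecidableEq X] [Fintype Y] [DecidableEq Y]

/-- Trace preserving maps given by finitely many Kraus operators. -/
structure GoodMap (M : Matrix X X ℂ → Matrix Y Y ℂ) : Prop where
  kraus : ∃ (m : ℕ) (K : Fin m → Matrix Y X ℂ), ∀ A, M A = ∑ j, K j * A * (K j)ᴴ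
  trace : ∀ A, (M A).trace = A.trace

/-- Block form of the output of `(amplitude damping with parameter γ) ⊗ id`. -/
noncomputable def OmB (γ : ℝ) (P B C Q : Matrix Y Y ℂ) : Matrix (Y ⊕ Y) (Y ⊕ Y) ℂ :=
  fromBlocks (P + (γ : ℂ) • Q) ((Real.sqrt (1 - γ) : ℂ) • B) ((Real.sqrt (1 - γ) : ℂ) • C)
    (((1 - γ : ℝ) : ℂ) • Q)

/-- Block form of `(amplitude damping with parameter γ) ⊗ M`. -/
noncomputable def NM (γ : ℝ) (M : Matrix X X ℂ → Matrix Y Y ℂ) (ρ : Matrix (X ⊕ X) (X ⊕ X) ℂ) :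
    Matrix (Y ⊕ Y) (Y ⊕ Y) ℂ :=
  OmB γ (M ρ.toBlocks₁₁) (M ρ.toBlocks₁₂) (M ρ.toBlocks₂₁) (M ρ.toBlocks₂₂)

namespace GoodMap

variable {M : Matrix X X ℂ → Matrix Y Y ℂ}

theorem map_add (hM : GoodMap M) (A B : Matrix X X ℂ) : M (A + B) = M A + M B := by
  obtain ⟨m, K, hK⟩ := hM.kraus
  simp only [hK, Matrix.mul_add, Matrix.add_mul, Finset.sum_add_distrib]

theorem map_smul (hM : GoodMap M) (c : ℂ) (A : Matrix X X ℂ) : M (c • A) = c • M A := by
  obtain ⟨m, K, hK⟩ := hM.kraus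
  simp only [hK, Matrix.mul_smul, Matrix.smul_mul, Finset.smul_sum]

theorem map_zero (hM : GoodMap M) : M 0 = 0 := by
  obtain ⟨m, K, hK⟩ := hM.kraus
  simp only [hK, Matrix.mul_zero, Matrix.zero_mul, Finset.sum_const_zero]

theorem map_sum (hM : GoodMap M) {ι : Type*} (s : Finset ι) (A : ι → Matrix X X ℂ) :
    M (∑ i ∈ s, A i) = ∑ i ∈ s, M (A i) := by
  classical
  induction s using Finset.induction_on with
  | empty => simp [hM.map_zero]
  | insert a s ha ih => rw [Finset.sum_insert ha, Finset.sum_insert ha, hM.map_add, ih]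

theorem map_conjTranspose (hM : GoodMap M) (A : Matrix X X ℂ) : M Aᴴ = (M A)ᴴ := by
  obtain ⟨m, K, hK⟩ := hM.kraus
  simp only [hK, Matrix.conjTranspose_sum, Matrix.conjTranspose_mul, Matrix.conjTranspose_conjTranspose,
    Matrix.mul_assoc]

theorem posSemidef (hM : GoodMap M) {A : Matrix X X ℂ} (hA : A.PosSemidef) :
    (M A).PosSemidef := by
  obtain ⟨m, K, hK⟩ := hM.kraus
  rw [hK]
  exact Matrix.posSemidef_sum _ fun j _ => hA.mul_mul_conjTranspose_same _

theorem isState (hM : GoodMap M) {A : Matrix X X ℂ} (hA : IsState A) : IsState (M A) :=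
  ⟨hM.posSemidef hA.1, by rw [hM.trace, hA.2]⟩

/-- two-positivity: `id ⊗ M` preserves positive semidefinite block matrices
(`∑ j, (K j ⊕ K j) * w * (K j ⊕ K j)ᴴ`). -/
theorem block_posSemidef (hM : GoodMap M) {P B C Q : Matrix X X ℂ}
    (hw : (fromBlocks P B C Q).PosSemidef) :
    (fromBlocks (M P) (M B) (M C) (M Q)).PosSemidef := by
  obtain ⟨m, K, hK⟩ := hM.kraus
  have hsum : ∀ (a b c d : Fin m → Matrix Y Y ℂ),
      ∑ j, fromBlocks (a j) (b j) (c j) (d j) =
        fromBlocks (∑ j, a j) (∑ j, b j) (∑ j, c j) (∑ j, d j) := by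
    intro a b c d
    ext (i | i) (k | k) <;> simp [Matrix.sum_apply]
  have key : fromBlocks (M P) (M B) (M C) (M Q) =
      ∑ j, fromBlocks (K j) 0 0 (K j) * fromBlocks P B C Q * (fromBlocks (K j) 0 0 (K j))ᴴ := by
    simp only [fromBlocks_conjTranspose, fromBlocks_multiply, Matrix.zero_mul, Matrix.mul_zero,
      add_zero, zero_add, conjTranspose_zero]
    rw [hsum]
    simp only [hK]
  rw [key]
  exact Matrix.posSemidef_sum _ fun j _ => hw.mul_mul_conjTranspose_same _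

end GoodMap

end Vale.Agent.P358
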