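import Vale.Agent.P358.AD.Bdd
import Vale.Agent.P358.AD.Chan

/-!
A few more elementary facts on positive semidefinite matrices, and the Holevo bound in nats for
good maps.
-/

namespace Vale.Agent.P358
open Matrix
open scoped ComplexOrder

variable {X Y : Type*} [Fintype X] [DecidableEq X] [Fintype Y] [DecidableEq Y]

theorem St_zero : St (0 : Matrix X X ℂ) = 0 := by
  have h := St_diagonal (X := X) (fun _ => 0) (fun _ => le_rfl)
  simpa using h

omit [DecidableEq X] in
/-- the trace of a positive semidefinite matrix is a nonnegative real number. -/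
theorem trace_eq_ofReal {A : Matrix X X ℂ} (hA : A.PosSemidef) :
    A.trace = ((A.trace.re : ℝ) : ℂ) ∧ 0 ≤ A.trace.re := by
  have h := Complex.le_def.1 hA.trace_nonneg
  refine ⟨?_, h.1⟩
  apply Complex.ext
  · simp
  · simpa using h.2.symm

omit [DecidableEq X] in
/-- a positive semidefinite matrix of trace zero vanishes. -/
theorem eq_zero_of_trace_re_eq_zero {A : Matrix X X ℂ} (hA : A.PosSemidef) (h : A.trace.re = 0) :
    A = 0 := by
  apply hA.trace_eq_zero_iff.1
  rw [(trace_eq_ofReal hA).1, h]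
  simp

/-- Ensembles indexed by an arbitrary finite type, entropies in nats; members of probability zero
need not be states. -/
theorem St_holevo_le_capacity {M : Matrix X X ℂ → Matrix Y Y ℂ} (hM : GoodMap M)
    {ι : Type*} [Fintype ι] (q : ι → ℝ) (ρ : ι → Matrix X X ℂ)
    (hq : ∀ a, 0 ≤ q a) (hq1 : ∑ a, q a = 1) (hρ : ∀ a, q a ≠ 0 → IsState (ρ a)) :
    St (∑ a, (q a : ℂ) • M (ρ a)) - ∑ a, q a * St (M (ρ a)) ≤ holevoCapacity M * Real.log 2 := by
  have h := holevoQ_le_capacity' M (fun σ hσ => hM.isState hσ) q ρ hq hq1 hρ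
  unfold holevoQ at h
  simp only [vnEntropy_eq_St] at h
  have hl := log_two_pos'
  have e : St (∑ a, (q a : ℂ) • M (ρ a)) / Real.log 2 - ∑ a, q a * (St (M (ρ a)) / Real.log 2) =
      (St (∑ a, (q a : ℂ) • M (ρ a)) - ∑ a, q a * St (M (ρ a))) / Real.log 2 := by
    rw [sub_div, Finset.sum_div]
    congr 1
    refine Finset.sum_congr rfl fun a _ => ?_
    ring
  rw [e, div_le_iff₀ hl] at h
  exact h

end Vale.Agent.P358
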