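import Vale.Agent.P358.AD.Chan

/-!
The amplitude damping channel and its tensor powers are good maps.
-/

namespace Vale.Agent.P358
open Matrix
open scoped ComplexOrder

/-- the tensor powers of the amplitude damping channel are good maps
(`tensorPow_eq_kraus`, `tensorPow_trace`; reindex `Fin n → Fin 4` by `Fintype.equivFin`). -/
theorem goodMap_tensorPow (γ : ℝ) (h0 : 0 ≤ γ) (h1 : γ ≤ 1) (n : ℕ) :
    GoodMap (tensorPow (gadc γ 0) n) := by
  refine ⟨?_, fun A => tensorPow_trace γ 0 n A⟩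
  refine ⟨Fintype.card (Fin n → Fin 4),
    fun j => Kn γ 0 n ((Fintype.equivFin (Fin n → Fin 4)).symm j), fun A => ?_⟩
  rw [tensorPow_eq_kraus γ 0 h0 h1 le_rfl zero_le_one]
  exact ((Fintype.equivFin (Fin n → Fin 4)).symm.sum_comp
    (fun j => Kn γ 0 n j * A * (Kn γ 0 n j)ᴴ)).symm

/-- the amplitude damping channel itself is a good map: Kraus operators
`!![1, 0; 0, √(1-γ)]` and `!![0, √γ; 0, 0]`. -/
theorem goodMap_gadc (γ : ℝ) (h0 : 0 ≤ γ) (h1 : γ ≤ 1) : GoodMap (gadc γ 0) := by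
  have hs1 : ((Real.sqrt (1 - γ) : ℝ) : ℂ) * ((Real.sqrt (1 - γ) : ℝ) : ℂ) = 1 - (γ : ℂ) := by
    rw [← Complex.ofReal_mul, Real.mul_self_sqrt (by linarith)]
    push_cast
    ring
  have hs2 : ((Real.sqrt γ : ℝ) : ℂ) * ((Real.sqrt γ : ℝ) : ℂ) = (γ : ℂ) := by
    rw [← Complex.ofReal_mul, Real.mul_self_sqrt h0]
  refine ⟨⟨2, ![!![1, 0; 0, ((Real.sqrt (1 - γ) : ℝ) : ℂ)], !![0, ((Real.sqrt γ : ℝ) : ℂ); 0, 0]],
    fun A => ?_⟩, fun A => ?_⟩
  · have hc1 : (!![1, 0; 0, ((Real.sqrt (1 - γ) : ℝ) : ℂ)] : Matrix (Fin 2) (Fin 2) ℂ)ᴴ =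
        !![1, 0; 0, ((Real.sqrt (1 - γ) : ℝ) : ℂ)] := by
      ext i j
      fin_cases i <;> fin_cases j <;> simp [Matrix.conjTranspose_apply]
    have hc2 : (!![0, ((Real.sqrt γ : ℝ) : ℂ); 0, 0] : Matrix (Fin 2) (Fin 2) ℂ)ᴴ =
        !![0, 0; ((Real.sqrt γ : ℝ) : ℂ), 0] := by
      ext i j
      fin_cases i <;> fin_cases j <;> simp [Matrix.conjTranspose_apply]
    rw [Fin.sum_univ_two]
    simp only [Matrix.cons_val_zero, Matrix.cons_val_one, hc1, hc2]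
    conv_rhs => rw [Matrix.eta_fin_two A]
    simp only [Matrix.mul_fin_two, gadc]
    ext i j
    fin_cases i <;> fin_cases j <;> simp
    · rw [mul_right_comm, hs2]
    · ring
    · rw [mul_right_comm, hs1]
  · simp [gadc, Matrix.trace, Fin.sum_univ_two]
    ring

end Vale.Agent.P358
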