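import Vale.Agent.P358.AD.L0
import Vale.Agent.P358.AD.Bdd2
import Vale.Agent.P358.AD.ChanInst

/-!
First bracket of the additivity argument: an ensemble of pure qubit states.
-/

namespace Vale.Agent.P358
open Matrix
open scoped ComplexOrder

/-- the pure qubit state with excited population `r` and real phase `e = ± 1`. -/
noncomputable def psiState (r e : ℝ) : Matrix (Fin 2) (Fin 2) ℂ :=
  !![((1 - r : ℝ) : ℂ), ((e * Real.sqrt (r * (1 - r)) : ℝ) : ℂ);
     ((e * Real.sqrt (r * (1 - r)) : ℝ) : ℂ), ((r : ℝ) : ℂ)]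

/-- `psiState r e = vecMulVec v (star v)` with `v = ![√(1-r), e √r]`. -/
theorem psiState_isState {r e : ℝ} (hr0 : 0 ≤ r) (hr1 : r ≤ 1) (he : e = 1 ∨ e = -1) :
    IsState (psiState r e) := by
  have he2 : e * e = 1 := by rcases he with h | h <;> rw [h] <;> norm_num
  have h1r : 0 ≤ 1 - r := by linarith
  have key : psiState r e =
      vecMulVec (![((Real.sqrt (1 - r) : ℝ) : ℂ), ((e * Real.sqrt r : ℝ) : ℂ)])
        (star ![((Real.sqrt (1 - r) : ℝ) : ℂ), ((e * Real.sqrt r : ℝ) : ℂ)]) := by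
    have hs : Real.sqrt (r * (1 - r)) = Real.sqrt r * Real.sqrt (1 - r) := Real.sqrt_mul hr0 _
    ext i j
    fin_cases i <;> fin_cases j
    · simp only [psiState, vecMulVec_apply]
      simp
      rw [← Complex.ofReal_mul, Real.mul_self_sqrt h1r]
      simp
    · simp only [psiState, vecMulVec_apply]
      simp [hs]
      ring
    · simp only [psiState, vecMulVec_apply]
      simp [hs]
      ring
    · simp only [psiState, vecMulVec_apply]
      simp
      have : ((e : ℂ) * (Real.sqrt r : ℂ)) * ((e : ℂ) * (Real.sqrt r : ℂ)) = (r : ℂ) := by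
        have h2 : ((e * Real.sqrt r) * (e * Real.sqrt r) : ℝ) = r := by
          calc (e * Real.sqrt r) * (e * Real.sqrt r) = (e * e) * (Real.sqrt r * Real.sqrt r) := by ring
            _ = r := by rw [he2, Real.mul_self_sqrt hr0, one_mul]
        exact_mod_cast h2
      rw [this]
  refine ⟨?_, ?_⟩
  · rw [key]
    exact Matrix.posSemidef_vecMulVec_self_star _
  · simp [psiState, Matrix.trace_fin_two]

/-- `St_eq_sum_of_det` with the family `![lamP .., lamM ..]`: the output matrix is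
`!![1 - r + γ r, e √(1-γ) √(r(1-r)); e √(1-γ) √(r(1-r)), (1-γ) r]`, with trace `1` and
`det (s + ·) = s^2 + s + γ (1-γ) r^2`. Positivity from `goodMap_gadc`. -/
theorem St_gadc_psiState (γ : ℝ) (h0 : 0 ≤ γ) (h1 : γ ≤ 1) {r e : ℝ} (hr0 : 0 ≤ r) (hr1 : r ≤ 1)
    (he : e = 1 ∨ e = -1) : St (gadc γ 0 (psiState r e)) = outE γ (1 - r) r := by
  have he2 : e * e = 1 := by rcases he with h | h <;> rw [h] <;> norm_num
  have h1r : 0 ≤ 1 - r := by linarith
  have h1g : 0 ≤ 1 - γ := by linarith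
  have hy : 0 ≤ γ * r := mul_nonneg h0 hr0
  have hz : 0 ≤ (1 - γ) * r := mul_nonneg h1g hr0
  have hpsd : (gadc γ 0 (psiState r e)).PosSemidef :=
    (goodMap_gadc γ h0 h1).posSemidef (psiState_isState hr0 hr1 he).1
  have hadd := lamP_add_lamM (1 - r) (γ * r) ((1 - γ) * r)
  have hmul := lamP_mul_lamM h1r hy hz
  have h := St_eq_sum_of_det (gadc γ 0 (psiState r e)) hpsd
    (![lamP (1 - r) (γ * r) ((1 - γ) * r), lamM (1 - r) (γ * r) ((1 - γ) * r)] : Fin 2 → ℝ)
    (by
      intro j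
      fin_cases j
      · exact lamP_nonneg h1r hy hz
      · exact lamM_nonneg h1r hy hz)
    (by simp)
    (by
      simp only [Fin.sum_univ_two, Matrix.cons_val_zero, Matrix.cons_val_one]
      rw [hadd]
      simp [gadc, psiState, Matrix.trace_fin_two])
    (by
      intro s hs
      simp only [Fin.prod_univ_two, Matrix.cons_val_zero, Matrix.cons_val_one]
      have e1 : (s + lamP (1 - r) (γ * r) ((1 - γ) * r)) * (s + lamM (1 - r) (γ * r) ((1 - γ) * r))
          = s ^ 2 + s + γ * r * ((1 - γ) * r) := by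
        calc _ = s ^ 2 + s * (lamP (1 - r) (γ * r) ((1 - γ) * r) + lamM (1 - r) (γ * r) ((1 - γ) * r))
              + lamP (1 - r) (γ * r) ((1 - γ) * r) * lamM (1 - r) (γ * r) ((1 - γ) * r) := by ring
          _ = _ := by rw [hadd, hmul]; ring
      rw [e1, Matrix.det_fin_two]
      have hsq1 : Real.sqrt (1 - γ) * Real.sqrt (1 - γ) = 1 - γ := Real.mul_self_sqrt h1g
      have hsq2 : Real.sqrt (r * (1 - r)) * Real.sqrt (r * (1 - r)) = r * (1 - r) :=
        Real.mul_self_sqrt (mul_nonneg hr0 h1r)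
      simp [gadc, psiState]
      have e3 : Real.sqrt (1 - γ) * (e * Real.sqrt (r * (1 - r))) *
          (Real.sqrt (1 - γ) * (e * Real.sqrt (r * (1 - r)))) = (1 - γ) * (r * (1 - r)) := by
        calc _ = (Real.sqrt (1 - γ) * Real.sqrt (1 - γ)) * (e * e) *
            (Real.sqrt (r * (1 - r)) * Real.sqrt (r * (1 - r))) := by ring
          _ = _ := by rw [hsq1, he2, hsq2]; ring
      rw [e3]
      ring)
  rw [h]
  simp only [Fin.sum_univ_two, Matrix.cons_val_zero, Matrix.cons_val_one]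
  rfl

theorem first_bracket_aux_avg (γ : ℝ) {k : ℕ} (q r : Fin k → ℝ) (hq1 : ∑ a, q a = 1) :
    (∑ ab : Fin k × Bool, ((q ab.1 / 2 : ℝ) : ℂ) •
        gadc γ 0 (psiState (r ab.1) (if ab.2 then 1 else -1))) =
      diagonal (fun i : Fin 2 =>
        (((![1 - (1 - γ) * ∑ a, q a * r a, (1 - γ) * ∑ a, q a * r a] : Fin 2 → ℝ) i : ℝ) : ℂ)) := by
  rw [Fintype.sum_prod_type]
  simp only [Fintype.sum_bool, if_true, Bool.false_eq_true, if_false]
  have hpt : ∀ a, ((q a / 2 : ℝ) : ℂ) • gadc γ 0 (psiState (r a) 1)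
      + ((q a / 2 : ℝ) : ℂ) • gadc γ 0 (psiState (r a) (-1)) =
      diagonal (fun i : Fin 2 =>
        (((![q a - (1 - γ) * (q a * r a), (1 - γ) * (q a * r a)] : Fin 2 → ℝ) i : ℝ) : ℂ)) := by
    intro a
    ext i j
    fin_cases i <;> fin_cases j <;>
      simp [gadc, psiState] <;> ring
  simp only [hpt]
  ext i j
  rw [Matrix.sum_apply]
  fin_cases i <;> fin_cases j <;>
    simp [Finset.mul_sum, ← hq1, Finset.sum_sub_distrib]

/-- First bracket: the ensemble `{q a / 2, psiState (r a) (± 1)}` (index type `Fin k × Bool`, use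
`St_holevo_le_capacity (goodMap_gadc ..)`); its average output is
`diagonal ![1 - (1-γ) r̄, (1-γ) r̄]` (`St_diagonal`). -/
theorem first_bracket (γ : ℝ) (h0 : 0 ≤ γ) (h1 : γ ≤ 1) {k : ℕ} (q r : Fin k → ℝ)
    (hq : ∀ a, 0 ≤ q a) (hq1 : ∑ a, q a = 1) (hr0 : ∀ a, 0 ≤ r a) (hr1 : ∀ a, r a ≤ 1) :
    Real.negMulLog (1 - (1 - γ) * ∑ a, q a * r a) + Real.negMulLog ((1 - γ) * ∑ a, q a * r a)
      - ∑ a, q a * outE γ (1 - r a) (r a) ≤ holevoCapacity (gadc γ 0) * Real.log 2 := by
  have hsgn : ∀ b : Bool, ((if b then 1 else -1 : ℝ) = 1 ∨ (if b then 1 else -1 : ℝ) = -1) := by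
    intro b; cases b <;> simp
  have h := St_holevo_le_capacity (goodMap_gadc γ h0 h1) (ι := Fin k × Bool)
    (fun ab => q ab.1 / 2) (fun ab => psiState (r ab.1) (if ab.2 then 1 else -1))
    (fun ab => div_nonneg (hq ab.1) (by norm_num))
    (by
      rw [Fintype.sum_prod_type]
      simp only [Fintype.sum_bool, add_halves, hq1])
    (fun ab _ => psiState_isState (hr0 ab.1) (hr1 ab.1) (hsgn ab.2))
  have hrbar0 : 0 ≤ ∑ a, q a * r a := Finset.sum_nonneg fun a _ => mul_nonneg (hq a) (hr0 a)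
  have hrbar1 : ∑ a, q a * r a ≤ 1 := by
    rw [← hq1]
    exact Finset.sum_le_sum fun a _ => mul_le_of_le_one_right (hq a) (hr1 a)
  have hd : ∀ i : Fin 2, 0 ≤ (![1 - (1 - γ) * ∑ a, q a * r a, (1 - γ) * ∑ a, q a * r a] :
      Fin 2 → ℝ) i := by
    intro i
    fin_cases i
    · simp only [Fin.zero_eta, Matrix.cons_val_zero]
      nlinarith
    · simp only [Fin.mk_one, Matrix.cons_val_one, Matrix.cons_val_zero]
      exact mul_nonneg (by linarith) hrbar0
  rw [first_bracket_aux_avg γ q r hq1, St_diagonal _ hd] at h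
  simp only [Fin.sum_univ_two, Matrix.cons_val_zero, Matrix.cons_val_one] at h
  have h2 : ∑ ab : Fin k × Bool, q ab.1 / 2 *
      St (gadc γ 0 (psiState (r ab.1) (if ab.2 then 1 else -1))) =
      ∑ a, q a * outE γ (1 - r a) (r a) := by
    rw [Fintype.sum_prod_type]
    refine Finset.sum_congr rfl fun a _ => ?_
    simp only [Fintype.sum_bool, if_true, Bool.false_eq_true, if_false]
    rw [St_gadc_psiState γ h0 h1 (hr0 a) (hr1 a) (Or.inl rfl),
      St_gadc_psiState γ h0 h1 (hr0 a) (hr1 a) (Or.inr rfl)]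
    ring
  rw [h2] at h
  exact h

end Vale.Agent.P358
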