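import Vale.Agent.P358.AD.StTool
import Vale.Agent.P358.Main

/-!
Boundedness of entropies and of the sets defining the Holevo capacity; ensembles indexed by an
arbitrary finite type.
-/

namespace Vale.Agent.P358
open Matrix
open scoped ComplexOrder

variable {X Y : Type*} [Fintype X] [DecidableEq X] [Fintype Y] [DecidableEq Y]

theorem log_two_pos' : 0 < Real.log 2 := Real.log_pos (by norm_num)

/-- eigenvalues of a state lie in `[0,1]`. -/
theorem state_eigenvalue_le_one (A : Matrix X X ℂ) (hA : IsState A) (k : X) :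
    hA.1.1.eigenvalues k ≤ 1 := by
  have hsum := sum_eigenvalues_eq_one A hA.1.1 hA.2
  have h0 : ∀ j, 0 ≤ hA.1.1.eigenvalues j := fun j => hA.1.eigenvalues_nonneg j
  calc hA.1.1.eigenvalues k ≤ ∑ j, hA.1.1.eigenvalues j :=
        Finset.single_le_sum (fun j _ => h0 j) (Finset.mem_univ k)
    _ = 1 := hsum

theorem St_nonneg_of_state (A : Matrix X X ℂ) (hA : IsState A) : 0 ≤ St A := by
  rw [St_of_herm A hA.1.1]
  refine Finset.sum_nonneg fun k _ => ?_
  exact Real.negMulLog_nonneg (hA.1.eigenvalues_nonneg k) (state_eigenvalue_le_one A hA k)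

theorem state_nonempty (A : Matrix X X ℂ) (hA : IsState A) : Nonempty X := by
  by_contra h
  rw [not_nonempty_iff] at h
  have := hA.2
  simp [Matrix.trace] at this

theorem St_le_log_card (A : Matrix X X ℂ) (hA : IsState A) :
    St A ≤ Real.log (Fintype.card X) := by
  have hne : Nonempty X := state_nonempty A hA
  have hc : (0 : ℝ) < Fintype.card X := by exact_mod_cast Fintype.card_pos
  rw [St_of_herm A hA.1.1]
  have h := entropy_upper A hA.1 hA.2 (fun _ => ((Fintype.card X : ℝ))⁻¹)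
    (fun _ => inv_pos.2 hc) (by
      rw [Finset.sum_const, Finset.card_univ, nsmul_eq_mul]
      exact (mul_inv_cancel₀ hc.ne').le)
  refine h.trans (le_of_eq ?_)
  rw [← Finset.sum_mul, Real.log_inv]
  have htr : ∑ x, (A x x).re = 1 := by
    have := congrArg Complex.re hA.2
    simpa [Matrix.trace] using this
  rw [htr]
  ring

theorem vnEntropy_nonneg_of_state (A : Matrix X X ℂ) (hA : IsState A) : 0 ≤ vnEntropy A := by
  rw [vnEntropy_eq_St]
  exact div_nonneg (St_nonneg_of_state A hA) log_two_pos'.le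

theorem vnEntropy_le_of_state (A : Matrix X X ℂ) (hA : IsState A) :
    vnEntropy A ≤ Real.log (Fintype.card X) / Real.log 2 := by
  rw [vnEntropy_eq_St]
  exact div_le_div_of_nonneg_right (St_le_log_card A hA) log_two_pos'.le

/-- mixtures of states indexed by an arbitrary finite type -/
theorem mixture_isState' {ι : Type*} [Fintype ι] (q : ι → ℝ)
    (ω : ι → Matrix X X ℂ) (hq : ∀ a, 0 ≤ q a) (hq1 : ∑ a, q a = 1)
    (hω : ∀ a, IsState (ω a)) : IsState (∑ a, (q a : ℂ) • ω a) := by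
  constructor
  · refine Matrix.posSemidef_sum _ fun a _ => ?_
    exact (hω a).1.smul (by exact_mod_cast hq a)
  · rw [Matrix.trace_sum]
    simp only [Matrix.trace_smul, (hω _).2, smul_eq_mul, mul_one]
    exact_mod_cast hq1

/-- A map sending states to states has Holevo quantities bounded by `log₂ |Y|`. -/
theorem holevoQuantity_le_log_card {X : Type*} [Fintype X]
    (Φ : Matrix X X ℂ → Matrix Y Y ℂ) (hΦ : ∀ ρ, IsState ρ → IsState (Φ ρ))
    {k : ℕ} (q : Fin k → ℝ) (ρ : Fin k → Matrix X X ℂ) (h : IsEnsemble q ρ) :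
    holevoQuantity Φ q ρ ≤ Real.log (Fintype.card Y) / Real.log 2 := by
  obtain ⟨hq, hq1, hρ⟩ := h
  unfold holevoQuantity
  have h1 := vnEntropy_le_of_state _
    (mixture_isState q (fun a => Φ (ρ a)) hq hq1 (fun a => hΦ _ (hρ a)))
  have h2 : 0 ≤ ∑ a, q a * vnEntropy (Φ (ρ a)) :=
    Finset.sum_nonneg fun a _ => mul_nonneg (hq a) (vnEntropy_nonneg_of_state _ (hΦ _ (hρ a)))
  linarith

theorem holevoSet_bddAbove {X : Type*} [Fintype X]
    (Φ : Matrix X X ℂ → Matrix Y Y ℂ) (hΦ : ∀ ρ, IsState ρ → IsState (Φ ρ)) :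
    BddAbove {r : ℝ | ∃ (k : ℕ) (q : Fin k → ℝ) (ρ : Fin k → Matrix X X ℂ),
      IsEnsemble q ρ ∧ r = holevoQuantity Φ q ρ} := by
  refine ⟨Real.log (Fintype.card Y) / Real.log 2, ?_⟩
  rintro r ⟨k, q, ρ, h, rfl⟩
  exact holevoQuantity_le_log_card Φ hΦ q ρ h

theorem holevoQuantity_le_capacity {X : Type*} [Fintype X]
    (Φ : Matrix X X ℂ → Matrix Y Y ℂ) (hΦ : ∀ ρ, IsState ρ → IsState (Φ ρ))
    {k : ℕ} (q : Fin k → ℝ) (ρ : Fin k → Matrix X X ℂ) (h : IsEnsemble q ρ) :
    holevoQuantity Φ q ρ ≤ holevoCapacity Φ :=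
  le_csSup (holevoSet_bddAbove Φ hΦ) ⟨k, q, ρ, h, rfl⟩

theorem holevoCapacity_le_log_card {X : Type*} [Fintype X]
    (Φ : Matrix X X ℂ → Matrix Y Y ℂ) (hΦ : ∀ ρ, IsState ρ → IsState (Φ ρ)) :
    holevoCapacity Φ ≤ Real.log (Fintype.card Y) / Real.log 2 := by
  unfold holevoCapacity
  refine Real.sSup_le ?_ ?_
  · rintro r ⟨k, q, ρ, h, rfl⟩
    exact holevoQuantity_le_log_card Φ hΦ q ρ h
  · refine div_nonneg (Real.log_natCast_nonneg _) log_two_pos'.le

/-- To bound the capacity from above it is enough to bound all Holevo quantities. -/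
theorem holevoCapacity_le_of_forall {X : Type*} [Fintype X]
    (Φ : Matrix X X ℂ → Matrix Y Y ℂ) (B : ℝ) (hB : 0 ≤ B)
    (h : ∀ (k : ℕ) (q : Fin k → ℝ) (ρ : Fin k → Matrix X X ℂ), IsEnsemble q ρ →
      holevoQuantity Φ q ρ ≤ B) : holevoCapacity Φ ≤ B := by
  unfold holevoCapacity
  refine Real.sSup_le ?_ hB
  rintro r ⟨k, q, ρ, hens, rfl⟩
  exact h k q ρ hens

/-- The one-point ensemble shows that the capacity is nonnegative. -/
theorem holevoCapacity_nonneg {X : Type*} [Fintype X]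
    (Φ : Matrix X X ℂ → Matrix Y Y ℂ) : 0 ≤ holevoCapacity Φ := by
  unfold holevoCapacity
  by_cases hst : ∃ ρ : Matrix X X ℂ, IsState ρ
  · obtain ⟨ρ, hρ⟩ := hst
    by_cases hb : BddAbove {r : ℝ | ∃ (k : ℕ) (q : Fin k → ℝ) (ρ : Fin k → Matrix X X ℂ),
      IsEnsemble q ρ ∧ r = holevoQuantity Φ q ρ}
    · refine le_csSup hb ⟨1, fun _ => 1, fun _ => ρ, ⟨fun _ => zero_le_one, by simp, fun _ => hρ⟩, ?_⟩
      simp [holevoQuantity]
    · rw [Real.sSup_of_not_bddAbove hb]
  · have : {r : ℝ | ∃ (k : ℕ) (q : Fin k → ℝ) (ρ : Fin k → Matrix X X ℂ),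
      IsEnsemble q ρ ∧ r = holevoQuantity Φ q ρ} = ∅ := by
      ext r
      simp only [Set.mem_empty_iff_false, iff_false]
      rintro ⟨k, q, ρ, ⟨hq, hq1, hρ⟩, -⟩
      rcases k with _ | k
      · simp at hq1
      · exact hst ⟨ρ 0, hρ 0⟩
    rw [this, Real.sSup_empty]

/-- Holevo quantity of an ensemble indexed by an arbitrary finite type. -/
noncomputable def holevoQ {X : Type*} {ι : Type*} [Fintype ι]
    (Φ : Matrix X X ℂ → Matrix Y Y ℂ) (q : ι → ℝ) (ρ : ι → Matrix X X ℂ) : ℝ :=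
  vnEntropy (∑ a, (q a : ℂ) • Φ (ρ a)) - ∑ a, q a * vnEntropy (Φ (ρ a))

theorem holevoQ_le_capacity {X : Type*} [Fintype X] {ι : Type*} [Fintype ι]
    (Φ : Matrix X X ℂ → Matrix Y Y ℂ) (hΦ : ∀ ρ, IsState ρ → IsState (Φ ρ))
    (q : ι → ℝ) (ρ : ι → Matrix X X ℂ) (hq : ∀ a, 0 ≤ q a) (hq1 : ∑ a, q a = 1)
    (hρ : ∀ a, IsState (ρ a)) :
    holevoQ Φ q ρ ≤ holevoCapacity Φ := by
  classical
  let e := Fintype.equivFin ι
  have h := holevoQuantity_le_capacity Φ hΦ (fun i => q (e.symm i)) (fun i => ρ (e.symm i))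
    ⟨fun i => hq _, by rw [Equiv.sum_comp e.symm q]; exact hq1, fun i => hρ _⟩
  have e1 : holevoQuantity Φ (fun i => q (e.symm i)) (fun i => ρ (e.symm i)) = holevoQ Φ q ρ := by
    unfold holevoQuantity holevoQ
    rw [Equiv.sum_comp e.symm (fun a => (q a : ℂ) • Φ (ρ a)),
      Equiv.sum_comp e.symm (fun a => q a * vnEntropy (Φ (ρ a)))]
  rw [← e1]
  exact h

/-- Version where zero-probability members need not be states. -/
theorem holevoQ_le_capacity' {X : Type*} [Fintype X] {ι : Type*} [Fintype ι]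
    (Φ : Matrix X X ℂ → Matrix Y Y ℂ) (hΦ : ∀ ρ, IsState ρ → IsState (Φ ρ))
    (q : ι → ℝ) (ρ : ι → Matrix X X ℂ) (hq : ∀ a, 0 ≤ q a) (hq1 : ∑ a, q a = 1)
    (hρ : ∀ a, q a ≠ 0 → IsState (ρ a)) :
    holevoQ Φ q ρ ≤ holevoCapacity Φ := by
  classical
  -- some member has positive probability, use it as a default state
  have hex : ∃ a, q a ≠ 0 := by
    by_contra hcon
    have h0 : ∀ a, q a = 0 := fun a => by
      by_contra hne
      exact hcon ⟨a, hne⟩
    simp [h0] at hq1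
  obtain ⟨a0, ha0⟩ := hex
  let ρ' : ι → Matrix X X ℂ := fun a => if q a = 0 then ρ a0 else ρ a
  have hρ' : ∀ a, IsState (ρ' a) := by
    intro a
    by_cases h : q a = 0
    · simp only [ρ', if_pos h]; exact hρ a0 ha0
    · simp only [ρ', if_neg h]; exact hρ a h
  have h := holevoQ_le_capacity Φ hΦ q ρ' hq hq1 hρ'
  have e1 : holevoQ Φ q ρ' = holevoQ Φ q ρ := by
    unfold holevoQ
    congr 1
    · congr 1
      refine Finset.sum_congr rfl fun a _ => ?_
      by_cases h : q a = 0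
      · simp [h]
      · simp only [ρ', if_neg h]
    · refine Finset.sum_congr rfl fun a _ => ?_
      by_cases h : q a = 0
      · simp [h]
      · simp only [ρ', if_neg h]
  rw [← e1]
  exact h

end Vale.Agent.P358
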