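import Vale.Agent.P358.AD.Chan

/-!
Splitting off the first qubit: `tensorPow (gadc γ 0) (n + 1)` in block form.
-/

namespace Vale.Agent.P358
open Matrix
open scoped ComplexOrder

/-- bit strings of length `n + 1` = two copies of the bit strings of length `n`
(`inl u ↦ (0, u)`, `inr u ↦ (1, u)`). -/
def consE (n : ℕ) : (Fin n → Fin 2) ⊕ (Fin n → Fin 2) ≃ (Fin (n + 1) → Fin 2) where
  toFun := Sum.elim (fun u => Fin.cons 0 u) (fun u => Fin.cons 1 u)
  invFun := fun x => if x 0 = 0 then Sum.inl (Fin.tail x) else Sum.inr (Fin.tail x)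
  left_inv := by
    rintro (u | u) <;> simp
  right_inv := by
    intro x
    by_cases h : x 0 = 0
    · simp only [h, if_true, Sum.elim_inl]
      rw [← h, Fin.cons_self_tail]
    · have h1 : x 0 = 1 := by
        have := Fin.exists_fin_two.1 ⟨x 0, rfl⟩
        omega
      simp only [h, if_false, Sum.elim_inr]
      rw [← h1, Fin.cons_self_tail]

theorem sum_consB {n : ℕ} {M : Type*} [AddCommMonoid M] (F : (Fin (n + 1) → Fin 2) → M) :
    ∑ x, F x = ∑ a : Fin 2, ∑ x' : Fin n → Fin 2, F (Fin.cons a x') := by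
  rw [← (Fin.consEquiv (fun _ : Fin (n + 1) => Fin 2)).sum_comp, Fintype.sum_prod_type]
  rfl

theorem tensorPow_succ_apply (Φ : Matrix (Fin 2) (Fin 2) ℂ → Matrix (Fin 2) (Fin 2) ℂ) (n : ℕ)
    (ρ : Matrix (Fin (n + 1) → Fin 2) (Fin (n + 1) → Fin 2) ℂ) (x0 y0 : Fin 2)
    (x' y' : Fin n → Fin 2) :
    tensorPow Φ (n + 1) ρ (Fin.cons x0 x') (Fin.cons y0 y') =
      ∑ u0, ∑ v0, Φ (Matrix.single u0 v0 1) x0 y0 *
        tensorPow Φ n (fun u' v' => ρ (Fin.cons u0 u') (Fin.cons v0 v')) x' y' := by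
  unfold tensorPow
  rw [sum_consB]
  refine Finset.sum_congr rfl fun u0 _ => ?_
  have : ∀ u' : Fin n → Fin 2,
      ∑ v : Fin (n + 1) → Fin 2,
        (∏ i, Φ (Matrix.single ((Fin.cons u0 u' : Fin (n + 1) → Fin 2) i) (v i) 1)
          ((Fin.cons x0 x' : Fin (n + 1) → Fin 2) i) ((Fin.cons y0 y' : Fin (n + 1) → Fin 2) i)) *
          ρ (Fin.cons u0 u') v =
      ∑ v0, ∑ v' : Fin n → Fin 2, Φ (Matrix.single u0 v0 1) x0 y0 *
        ((∏ i, Φ (Matrix.single (u' i) (v' i) 1) (x' i) (y' i)) *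
          ρ (Fin.cons u0 u') (Fin.cons v0 v')) := by
    intro u'
    rw [sum_consB]
    refine Finset.sum_congr rfl fun v0 _ => Finset.sum_congr rfl fun v' _ => ?_
    rw [Fin.prod_univ_succ]
    simp only [Fin.cons_zero, Fin.cons_succ]
    ring
  simp_rw [this]
  rw [Finset.sum_comm]
  refine Finset.sum_congr rfl fun v0 _ => ?_
  rw [Finset.mul_sum]
  refine Finset.sum_congr rfl fun u' _ => ?_
  rw [Finset.mul_sum]

/-- The `(n+1)`-st tensor power in block form. Entrywise: for `x = cons x0 x'`, `y = cons y0 y'`,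
split the sums over `u v : Fin (n+1) → Fin 2` with `sum_cons` (file `RealInd`) and the product with
`Fin.prod_univ_succ`; then evaluate `gadc γ 0 (single u0 v0 1) x0 y0` for the 16 cases. -/
theorem tensorPow_succ_blocks (γ : ℝ) (n : ℕ)
    (ρ : Matrix (Fin (n + 1) → Fin 2) (Fin (n + 1) → Fin 2) ℂ) :
    (tensorPow (gadc γ 0) (n + 1) ρ).submatrix (consE n) (consE n) =
      NM γ (tensorPow (gadc γ 0) n) (ρ.submatrix (consE n) (consE n)) := by
  have h11 : (ρ.submatrix (consE n) (consE n)).toBlocks₁₁ =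
      fun u' v' => ρ (Fin.cons 0 u') (Fin.cons 0 v') := rfl
  have h12 : (ρ.submatrix (consE n) (consE n)).toBlocks₁₂ =
      fun u' v' => ρ (Fin.cons 0 u') (Fin.cons 1 v') := rfl
  have h21 : (ρ.submatrix (consE n) (consE n)).toBlocks₂₁ =
      fun u' v' => ρ (Fin.cons 1 u') (Fin.cons 0 v') := rfl
  have h22 : (ρ.submatrix (consE n) (consE n)).toBlocks₂₂ =
      fun u' v' => ρ (Fin.cons 1 u') (Fin.cons 1 v') := rfl
  have e0 : ∀ x : Fin n → Fin 2, consE n (Sum.inl x) = Fin.cons 0 x := fun _ => rfl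
  have e1 : ∀ x : Fin n → Fin 2, consE n (Sum.inr x) = Fin.cons 1 x := fun _ => rfl
  ext (x | x) (y | y)
  · simp only [submatrix_apply, e0, e1, tensorPow_succ_apply, Fin.sum_univ_two, NM, OmB,
      fromBlocks_apply₁₁, h11, h12, h21, h22]
    simp [gadc, Matrix.single]
  · simp only [submatrix_apply, e0, e1, tensorPow_succ_apply, Fin.sum_univ_two, NM, OmB,
      fromBlocks_apply₁₂, h11, h12, h21, h22]
    simp [gadc, Matrix.single]
  · simp only [submatrix_apply, e0, e1, tensorPow_succ_apply, Fin.sum_univ_two, NM, OmB,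
      fromBlocks_apply₂₁, h11, h12, h21, h22]
    simp [gadc, Matrix.single]
  · simp only [submatrix_apply, e0, e1, tensorPow_succ_apply, Fin.sum_univ_two, NM, OmB,
      fromBlocks_apply₂₂, h11, h12, h21, h22]
    simp [gadc, Matrix.single]

end Vale.Agent.P358
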