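import Vale.Agent.P358.AD.Bdd

/-!
Bookkeeping for the classical capacity: if the Holevo capacity of the tensor powers is subadditive
then the classical capacity equals the one-shot Holevo capacity.
-/

namespace Vale.Agent.P358
open Matrix
open scoped ComplexOrder

/-- the identification of one-bit strings with bits -/
def e1 : (Fin 1 → Fin 2) ≃ Fin 2 := Equiv.funUnique (Fin 1) (Fin 2)

theorem e1_apply (f : Fin 1 → Fin 2) : e1 f = f 0 := rfl

theorem e1_symm_apply (a : Fin 2) (i : Fin 1) : e1.symm a i = a := rfl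

theorem tensorPow_one (γ ν : ℝ) (ρ : Matrix (Fin 1 → Fin 2) (Fin 1 → Fin 2) ℂ) :
    tensorPow (gadc γ ν) 1 ρ = (gadc γ ν (ρ.submatrix e1.symm e1.symm)).submatrix e1 e1 := by
  ext x y
  unfold tensorPow
  rw [← Equiv.sum_comp e1.symm]
  simp only [← Equiv.sum_comp e1.symm (fun v : Fin 1 → Fin 2 => _ * ρ _ v)]
  simp only [Fin.prod_univ_one, e1_symm_apply, Fin.sum_univ_two, submatrix_apply, e1_apply]
  generalize x 0 = a
  generalize y 0 = b
  fin_cases a <;> fin_cases b <;> simp [gadc, Matrix.single]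

theorem isState_submatrix {X Y : Type*} [Fintype X] [Fintype Y] (A : Matrix X X ℂ) (hA : IsState A)
    (e : Y ≃ X) : IsState (A.submatrix e e) := by
  refine ⟨hA.1.submatrix e, ?_⟩
  rw [← hA.2]
  simp only [Matrix.trace, Matrix.diag, Matrix.submatrix_apply]
  rw [Equiv.sum_comp e (fun i => A i i)]

theorem vnEntropy_submatrix {X Y : Type*} [Fintype X] [DecidableEq X] [Fintype Y] [DecidableEq Y]
    (A : Matrix X X ℂ) (hA : A.PosSemidef) (e : Y ≃ X) :
    vnEntropy (A.submatrix e e) = vnEntropy A := by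
  rw [vnEntropy_eq_St, vnEntropy_eq_St, St_submatrix_equiv A hA e]

/-- `gadc` sends states to states (through the tensor power with `n = 1`). -/
theorem gadc_isState (γ ν : ℝ) (hγ0 : 0 ≤ γ) (hγ1 : γ ≤ 1) (hν0 : 0 ≤ ν) (hν1 : ν ≤ 1)
    (ρ : Matrix (Fin 2) (Fin 2) ℂ) (hρ : IsState ρ) : IsState (gadc γ ν ρ) := by
  have h := tensorPow_isState γ ν hγ0 hγ1 hν0 hν1 1 (ρ.submatrix e1 e1) (isState_submatrix ρ hρ e1)
  rw [tensorPow_one] at h
  have h2 := isState_submatrix _ h e1.symm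
  simpa using h2

theorem holevoCapacity_le_tensorPow_one (γ ν : ℝ) (hγ0 : 0 ≤ γ) (hγ1 : γ ≤ 1) (hν0 : 0 ≤ ν)
    (hν1 : ν ≤ 1) :
    holevoCapacity (gadc γ ν) ≤ holevoCapacity (tensorPow (gadc γ ν) 1) := by
  refine holevoCapacity_le_of_forall _ _ (holevoCapacity_nonneg _) ?_
  intro k q ρ hens
  obtain ⟨hq, hq1, hρ⟩ := hens
  have hens' : IsEnsemble q (fun a => (ρ a).submatrix e1 e1) :=
    ⟨hq, hq1, fun a => isState_submatrix _ (hρ a) e1⟩
  have h := holevoQuantity_le_capacity (tensorPow (gadc γ ν) 1)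
    (fun σ hσ => tensorPow_isState γ ν hγ0 hγ1 hν0 hν1 1 σ hσ) q _ hens'
  refine le_trans (le_of_eq ?_) h
  unfold holevoQuantity
  have hT : ∀ a, tensorPow (gadc γ ν) 1 ((ρ a).submatrix e1 e1) =
      (gadc γ ν (ρ a)).submatrix e1 e1 := by
    intro a
    rw [tensorPow_one]
    simp
  simp only [hT]
  have hst : ∀ a, IsState (gadc γ ν (ρ a)) := fun a => gadc_isState γ ν hγ0 hγ1 hν0 hν1 _ (hρ a)
  have hsum : ∑ a, (q a : ℂ) • (gadc γ ν (ρ a)).submatrix e1 e1 =
      (∑ a, (q a : ℂ) • gadc γ ν (ρ a)).submatrix e1 e1 := by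
    ext x y
    simp [Matrix.sum_apply]
  rw [hsum, vnEntropy_submatrix _ (mixture_isState q _ hq hq1 hst).1 e1]
  congr 1
  refine Finset.sum_congr rfl fun a _ => ?_
  rw [vnEntropy_submatrix _ (hst a).1 e1]

/-- Abstract bookkeeping: subadditivity of the Holevo capacity of tensor powers gives `C = χ`. -/
theorem classicalCapacity_eq_of_subadd
    (Φ : Matrix (Fin 2) (Fin 2) ℂ → Matrix (Fin 2) (Fin 2) ℂ)
    (H1 : ∀ n : ℕ, 1 ≤ n → holevoCapacity (tensorPow Φ n) ≤ n * holevoCapacity Φ)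
    (H2 : holevoCapacity Φ ≤ holevoCapacity (tensorPow Φ 1)) :
    classicalCapacity Φ = holevoCapacity Φ := by
  unfold classicalCapacity
  have hub : ∀ r ∈ {r : ℝ | ∃ n : ℕ, 1 ≤ n ∧ r = holevoCapacity (tensorPow Φ n) / n},
      r ≤ holevoCapacity Φ := by
    rintro r ⟨n, hn, rfl⟩
    have hn' : (0 : ℝ) < n := by exact_mod_cast hn
    rw [div_le_iff₀ hn', mul_comm]
    exact H1 n hn
  apply le_antisymm
  · exact Real.sSup_le hub (holevoCapacity_nonneg Φ)
  · refine le_trans H2 ?_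
    refine le_csSup ⟨_, hub⟩ ⟨1, le_refl 1, ?_⟩
    simp

/-- The form used for the amplitude damping channel: one-step subadditivity
`χ(T_{n+1}) ≤ χ(Φ) + χ(T_n)` is enough. -/
theorem classicalCapacity_gadc_eq_of_step (γ ν : ℝ) (hγ0 : 0 ≤ γ) (hγ1 : γ ≤ 1) (hν0 : 0 ≤ ν)
    (hν1 : ν ≤ 1)
    (hstep : ∀ n : ℕ, holevoCapacity (tensorPow (gadc γ ν) (n + 1)) ≤
      holevoCapacity (gadc γ ν) + holevoCapacity (tensorPow (gadc γ ν) n))
    (h0 : holevoCapacity (tensorPow (gadc γ ν) 0) ≤ 0) :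
    classicalCapacity (gadc γ ν) = holevoCapacity (gadc γ ν) := by
  refine classicalCapacity_eq_of_subadd _ ?_
    (holevoCapacity_le_tensorPow_one γ ν hγ0 hγ1 hν0 hν1)
  have hall : ∀ n : ℕ, holevoCapacity (tensorPow (gadc γ ν) n) ≤ n * holevoCapacity (gadc γ ν) := by
    intro n
    induction n with
    | zero => simpa using h0
    | succ n ih =>
      have := hstep n
      push_cast
      linarith
  exact fun n _ => hall n

/-- The zeroth tensor power has a one-dimensional output, so its Holevo capacity vanishes. -/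
theorem holevoCapacity_tensorPow_zero (γ ν : ℝ) (hγ0 : 0 ≤ γ) (hγ1 : γ ≤ 1) (hν0 : 0 ≤ ν)
    (hν1 : ν ≤ 1) : holevoCapacity (tensorPow (gadc γ ν) 0) ≤ 0 := by
  have h := holevoCapacity_le_log_card (tensorPow (gadc γ ν) 0)
    (fun σ hσ => tensorPow_isState γ ν hγ0 hγ1 hν0 hν1 0 σ hσ)
  simpa using h

end Vale.Agent.P358
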