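import Vale.Agent.P358.AD.CapBook

/-!
Composition and flip symmetry of generalized amplitude damping channels, and the resulting
comparison of capacities.  If `A = A₂ ∘ A₁` then every ensemble for `A` is turned by `A₁` into an
ensemble for `A₂` with the same Holevo quantity, so the capacities of `A` are at most those of `A₂`.
-/

namespace Vale.Agent.P358
open Matrix Finset
open scoped ComplexOrder

/-- single-site composition of phase covariant tensors -/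
theorem tG_comp (d1 d2 : Fin 2 → Fin 2 → ℝ) (c1 c2 : ℝ) (x y u v : Fin 2) :
    ∑ a, ∑ b, tG d2 c2 x y a b * tG d1 c1 a b u v =
      tG (fun x u => ∑ a, d2 x a * d1 a u) (c2 * c1) x y u v := by
  fin_cases x <;> fin_cases y <;> fin_cases u <;> fin_cases v <;>
    simp [tG, Fin.sum_univ_two]

/-- the parameters of a composition -/
theorem dG_comp (γ ν γ1 ν1 γ2 ν2 : ℝ) (h1 : γ = γ1 + γ2 - γ1 * γ2)
    (h2 : γ * ν = (1 - γ2) * γ1 * ν1 + γ2 * ν2) :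
    (fun x u => ∑ a, dG γ2 ν2 x a * dG γ1 ν1 a u) = dG γ ν := by
  funext x u
  fin_cases x <;> fin_cases u <;> simp [dG, Fin.sum_univ_two]
  · linear_combination h2
  · linear_combination h2 - h1
  · linear_combination -h2
  · linear_combination h1 - h2

theorem sqrt_comp (γ γ1 γ2 : ℝ) (h1 : γ = γ1 + γ2 - γ1 * γ2) (hγ2 : γ2 ≤ 1) :
    Real.sqrt (1 - γ2) * Real.sqrt (1 - γ1) = Real.sqrt (1 - γ) := by
  rw [← Real.sqrt_mul (by linarith)]
  congr 1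
  rw [h1]
  ring

/-- sums over pairs of bit strings of products factorise -/
theorem sum_sum_prod {n : ℕ} (F : Fin n → Fin 2 → Fin 2 → ℝ) :
    ∑ a : Fin n → Fin 2, ∑ b : Fin n → Fin 2, ∏ i, F i (a i) (b i) =
      ∏ i, ∑ a : Fin 2, ∑ b : Fin 2, F i a b := by
  have h1 : ∀ a : Fin n → Fin 2, ∑ b : Fin n → Fin 2, ∏ i, F i (a i) (b i) =
      ∏ i, ∑ b : Fin 2, F i (a i) b := by
    intro a
    have h := Finset.prod_univ_sum (fun _ : Fin n => (Finset.univ : Finset (Fin 2)))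
      (fun i b => F i (a i) b)
    rw [Fintype.piFinset_univ] at h
    exact h.symm
  simp_rw [h1]
  have h := Finset.prod_univ_sum (fun _ : Fin n => (Finset.univ : Finset (Fin 2)))
    (fun i a => ∑ b : Fin 2, F i a b)
  rw [Fintype.piFinset_univ] at h
  exact h.symm

/-- tensor powers of a composition -/
theorem tensorPow_comp (γ ν γ1 ν1 γ2 ν2 : ℝ) (h1 : γ = γ1 + γ2 - γ1 * γ2)
    (h2 : γ * ν = (1 - γ2) * γ1 * ν1 + γ2 * ν2) (hγ2 : γ2 ≤ 1) (n : ℕ)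
    (ρ : Matrix (Fin n → Fin 2) (Fin n → Fin 2) ℂ) :
    tensorPow (gadc γ ν) n ρ = tensorPow (gadc γ2 ν2) n (tensorPow (gadc γ1 ν1) n ρ) := by
  ext x y
  rw [tensorPow_apply, tensorPow_apply]
  simp_rw [tensorPow_apply, Finset.mul_sum]
  have hswap : ∑ a : Fin n → Fin 2, ∑ b : Fin n → Fin 2, ∑ u : Fin n → Fin 2, ∑ v : Fin n → Fin 2,
      ((∏ i, tG (dG γ2 ν2) (Real.sqrt (1 - γ2)) (x i) (y i) (a i) (b i) : ℝ) : ℂ) *
        (((∏ i, tG (dG γ1 ν1) (Real.sqrt (1 - γ1)) (a i) (b i) (u i) (v i) : ℝ) : ℂ) * ρ u v) =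
      ∑ u : Fin n → Fin 2, ∑ v : Fin n → Fin 2, ∑ a : Fin n → Fin 2, ∑ b : Fin n → Fin 2,
      ((∏ i, tG (dG γ2 ν2) (Real.sqrt (1 - γ2)) (x i) (y i) (a i) (b i) : ℝ) : ℂ) *
        (((∏ i, tG (dG γ1 ν1) (Real.sqrt (1 - γ1)) (a i) (b i) (u i) (v i) : ℝ) : ℂ) * ρ u v) := by
    calc _ = ∑ a : Fin n → Fin 2, ∑ u : Fin n → Fin 2, ∑ b : Fin n → Fin 2, ∑ v : Fin n → Fin 2,
          ((∏ i, tG (dG γ2 ν2) (Real.sqrt (1 - γ2)) (x i) (y i) (a i) (b i) : ℝ) : ℂ) *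
          (((∏ i, tG (dG γ1 ν1) (Real.sqrt (1 - γ1)) (a i) (b i) (u i) (v i) : ℝ) : ℂ) * ρ u v) :=
          Finset.sum_congr rfl fun a _ => Finset.sum_comm
      _ = ∑ u : Fin n → Fin 2, ∑ a : Fin n → Fin 2, ∑ b : Fin n → Fin 2, ∑ v : Fin n → Fin 2,
          ((∏ i, tG (dG γ2 ν2) (Real.sqrt (1 - γ2)) (x i) (y i) (a i) (b i) : ℝ) : ℂ) *
          (((∏ i, tG (dG γ1 ν1) (Real.sqrt (1 - γ1)) (a i) (b i) (u i) (v i) : ℝ) : ℂ) * ρ u v) :=
          Finset.sum_comm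
      _ = ∑ u : Fin n → Fin 2, ∑ a : Fin n → Fin 2, ∑ v : Fin n → Fin 2, ∑ b : Fin n → Fin 2,
          ((∏ i, tG (dG γ2 ν2) (Real.sqrt (1 - γ2)) (x i) (y i) (a i) (b i) : ℝ) : ℂ) *
          (((∏ i, tG (dG γ1 ν1) (Real.sqrt (1 - γ1)) (a i) (b i) (u i) (v i) : ℝ) : ℂ) * ρ u v) :=
          Finset.sum_congr rfl fun u _ => Finset.sum_congr rfl fun a _ => Finset.sum_comm
      _ = _ := Finset.sum_congr rfl fun u _ => Finset.sum_comm
  rw [hswap]
  refine Finset.sum_congr rfl fun u _ => Finset.sum_congr rfl fun v _ => ?_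
  have hkey : ∏ i, tG (dG γ ν) (Real.sqrt (1 - γ)) (x i) (y i) (u i) (v i) =
      ∑ a : Fin n → Fin 2, ∑ b : Fin n → Fin 2,
        (∏ i, tG (dG γ2 ν2) (Real.sqrt (1 - γ2)) (x i) (y i) (a i) (b i)) *
        (∏ i, tG (dG γ1 ν1) (Real.sqrt (1 - γ1)) (a i) (b i) (u i) (v i)) := by
    simp_rw [← Finset.prod_mul_distrib]
    rw [sum_sum_prod (fun i a b => tG (dG γ2 ν2) (Real.sqrt (1 - γ2)) (x i) (y i) a b *
      tG (dG γ1 ν1) (Real.sqrt (1 - γ1)) a b (u i) (v i))]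
    refine Finset.prod_congr rfl fun i _ => ?_
    rw [tG_comp, dG_comp γ ν γ1 ν1 γ2 ν2 h1 h2, sqrt_comp γ γ1 γ2 h1 hγ2]
  rw [hkey, Complex.ofReal_sum, Finset.sum_mul]
  refine Finset.sum_congr rfl fun a _ => ?_
  rw [Complex.ofReal_sum, Finset.sum_mul]
  refine Finset.sum_congr rfl fun b _ => ?_
  rw [Complex.ofReal_mul]
  ring

/-- the set defining the classical capacity is bounded by one -/
theorem holevoCapacity_tensorPow_le (γ ν : ℝ) (hγ0 : 0 ≤ γ) (hγ1 : γ ≤ 1) (hν0 : 0 ≤ ν)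
    (hν1 : ν ≤ 1) (n : ℕ) : holevoCapacity (tensorPow (gadc γ ν) n) ≤ n := by
  have h := holevoCapacity_le_log_card (tensorPow (gadc γ ν) n)
    (fun σ hσ => tensorPow_isState γ ν hγ0 hγ1 hν0 hν1 n σ hσ)
  refine h.trans (le_of_eq ?_)
  have hc : Fintype.card (Fin n → Fin 2) = 2 ^ n := by simp
  rw [hc]
  push_cast
  rw [Real.log_pow]
  field_simp [log_two_pos'.ne']

theorem classicalSet_bddAbove (γ ν : ℝ) (hγ0 : 0 ≤ γ) (hγ1 : γ ≤ 1) (hν0 : 0 ≤ ν)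
    (hν1 : ν ≤ 1) :
    BddAbove {r : ℝ | ∃ n : ℕ, 1 ≤ n ∧ r = holevoCapacity (tensorPow (gadc γ ν) n) / n} := by
  refine ⟨1, ?_⟩
  rintro r ⟨n, hn, rfl⟩
  have hn' : (0 : ℝ) < n := by exact_mod_cast hn
  rw [div_le_one hn']
  exact holevoCapacity_tensorPow_le γ ν hγ0 hγ1 hν0 hν1 n

theorem holevoCapacity_div_le_classical (γ ν : ℝ) (hγ0 : 0 ≤ γ) (hγ1 : γ ≤ 1) (hν0 : 0 ≤ ν)
    (hν1 : ν ≤ 1) (n : ℕ) (hn : 1 ≤ n) :
    holevoCapacity (tensorPow (gadc γ ν) n) / n ≤ classicalCapacity (gadc γ ν) :=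
  le_csSup (classicalSet_bddAbove γ ν hγ0 hγ1 hν0 hν1) ⟨n, hn, rfl⟩

theorem classicalCapacity_nonneg (γ ν : ℝ) (hγ0 : 0 ≤ γ) (hγ1 : γ ≤ 1) (hν0 : 0 ≤ ν)
    (hν1 : ν ≤ 1) : 0 ≤ classicalCapacity (gadc γ ν) := by
  refine le_trans ?_ (holevoCapacity_div_le_classical γ ν hγ0 hγ1 hν0 hν1 1 le_rfl)
  exact div_nonneg (holevoCapacity_nonneg _) (by norm_num)

/-- the one-shot Holevo capacity is a lower bound for the classical capacity -/
theorem holevoCapacity_le_classical (γ ν : ℝ) (hγ0 : 0 ≤ γ) (hγ1 : γ ≤ 1) (hν0 : 0 ≤ ν)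
    (hν1 : ν ≤ 1) : holevoCapacity (gadc γ ν) ≤ classicalCapacity (gadc γ ν) := by
  refine le_trans (holevoCapacity_le_tensorPow_one γ ν hγ0 hγ1 hν0 hν1) ?_
  have h := holevoCapacity_div_le_classical γ ν hγ0 hγ1 hν0 hν1 1 le_rfl
  simpa using h

/-- comparison of classical capacities from a comparison of all tensor powers -/
theorem classicalCapacity_le_of_forall (γ ν γ' ν' : ℝ) (hγ0 : 0 ≤ γ') (hγ1 : γ' ≤ 1)
    (hν0 : 0 ≤ ν') (hν1 : ν' ≤ 1)
    (h : ∀ n : ℕ, holevoCapacity (tensorPow (gadc γ ν) n) ≤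
      holevoCapacity (tensorPow (gadc γ' ν') n)) :
    classicalCapacity (gadc γ ν) ≤ classicalCapacity (gadc γ' ν') := by
  conv_lhs => unfold classicalCapacity
  refine Real.sSup_le ?_ (classicalCapacity_nonneg γ' ν' hγ0 hγ1 hν0 hν1)
  rintro r ⟨n, hn, rfl⟩
  refine le_trans ?_ (holevoCapacity_div_le_classical γ' ν' hγ0 hγ1 hν0 hν1 n hn)
  exact div_le_div_of_nonneg_right (h n) (Nat.cast_nonneg n)

/-- if `A = A₂ ∘ A₁` then the Holevo capacity of every tensor power of `A` is at most that of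
`A₂` -/
theorem holevoCapacity_tensorPow_le_comp (γ ν γ1 ν1 γ2 ν2 : ℝ) (h1 : γ = γ1 + γ2 - γ1 * γ2)
    (h2 : γ * ν = (1 - γ2) * γ1 * ν1 + γ2 * ν2)
    (hγ10 : 0 ≤ γ1) (hγ11 : γ1 ≤ 1) (hν10 : 0 ≤ ν1) (hν11 : ν1 ≤ 1)
    (hγ20 : 0 ≤ γ2) (hγ21 : γ2 ≤ 1) (hν20 : 0 ≤ ν2) (hν21 : ν2 ≤ 1) (n : ℕ) :
    holevoCapacity (tensorPow (gadc γ ν) n) ≤ holevoCapacity (tensorPow (gadc γ2 ν2) n) := by
  refine holevoCapacity_le_of_forall _ _ (holevoCapacity_nonneg _) ?_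
  intro k q ρ hens
  obtain ⟨hq, hq1, hρ⟩ := hens
  have hens' : IsEnsemble q (fun a => tensorPow (gadc γ1 ν1) n (ρ a)) :=
    ⟨hq, hq1, fun a => tensorPow_isState γ1 ν1 hγ10 hγ11 hν10 hν11 n _ (hρ a)⟩
  have h := holevoQuantity_le_capacity (tensorPow (gadc γ2 ν2) n)
    (fun σ hσ => tensorPow_isState γ2 ν2 hγ20 hγ21 hν20 hν21 n σ hσ) q _ hens'
  refine le_trans (le_of_eq ?_) h
  unfold holevoQuantity
  simp only [tensorPow_comp γ ν γ1 ν1 γ2 ν2 h1 h2 hγ21 n]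

/-- `A_{γ,ν} = A_{γ(1-ν),0} ∘ A_{γ₁,1}`: the capacity of a generalized amplitude damping channel is
at most the capacity of the amplitude damping channel with damping `γ (1 - ν)`. -/
theorem classicalCapacity_gadc_le_ad (γ ν : ℝ) (hγ0 : 0 ≤ γ) (hγ1 : γ ≤ 1) (hν0 : 0 ≤ ν)
    (hν1 : ν ≤ 1) :
    classicalCapacity (gadc γ ν) ≤ classicalCapacity (gadc (γ * (1 - ν)) 0) := by
  have hg0 : 0 ≤ γ * (1 - ν) := mul_nonneg hγ0 (by linarith)
  have hg1 : γ * (1 - ν) ≤ 1 := by nlinarith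
  rcases eq_or_lt_of_le hg1 with he | hlt
  · -- then `γ = 1` and `ν = 0`
    have hγ : γ = 1 := by nlinarith
    have hν : ν = 0 := by
      rw [hγ] at he
      linarith
    rw [hγ, hν]
    norm_num
  · have hD : 0 < 1 - γ * (1 - ν) := by linarith
    refine classicalCapacity_le_of_forall _ _ _ _ hg0 hg1 le_rfl zero_le_one fun n => ?_
    refine holevoCapacity_tensorPow_le_comp γ ν (γ * ν / (1 - γ * (1 - ν))) 1 (γ * (1 - ν)) 0
      ?_ ?_ ?_ ?_ zero_le_one le_rfl hg0 hg1 le_rfl zero_le_one n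
    · field_simp
      ring
    · field_simp
      ring
    · exact div_nonneg (mul_nonneg hγ0 hν0) hD.le
    · rw [div_le_one hD]
      nlinarith

/-! ### flip symmetry -/

/-- exchange of the two levels -/
def fl : Fin 2 ≃ Fin 2 := Equiv.swap 0 1

/-- exchange of the two levels in every factor -/
def fln (n : ℕ) : (Fin n → Fin 2) ≃ (Fin n → Fin 2) := Equiv.piCongrRight fun _ => fl

theorem fl_fl (a : Fin 2) : fl (fl a) = a := by
  simp [fl]

theorem fln_apply (n : ℕ) (x : Fin n → Fin 2) (i : Fin n) : fln n x i = fl (x i) := rfl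

theorem fln_fln (n : ℕ) (x : Fin n → Fin 2) : fln n (fln n x) = x := by
  funext i
  rw [fln_apply, fln_apply, fl_fl]

theorem tG_flip (γ ν c : ℝ) (x y u v : Fin 2) :
    tG (dG γ (1 - ν)) c x y u v = tG (dG γ ν) c (fl x) (fl y) (fl u) (fl v) := by
  fin_cases x <;> fin_cases y <;> fin_cases u <;> fin_cases v <;>
    simp [tG, dG, fl]

theorem tensorPow_flip (γ ν : ℝ) (n : ℕ) (ρ : Matrix (Fin n → Fin 2) (Fin n → Fin 2) ℂ) :
    tensorPow (gadc γ (1 - ν)) n ρ =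
      (tensorPow (gadc γ ν) n (ρ.submatrix (fln n) (fln n))).submatrix (fln n) (fln n) := by
  ext x y
  rw [tensorPow_apply, submatrix_apply, tensorPow_apply]
  rw [← Equiv.sum_comp (fln n)]
  refine Finset.sum_congr rfl fun u _ => ?_
  rw [← Equiv.sum_comp (fln n)]
  refine Finset.sum_congr rfl fun v _ => ?_
  rw [submatrix_apply]
  congr 2
  refine Finset.prod_congr rfl fun i _ => ?_
  rw [tG_flip, fln_apply, fln_apply, fl_fl, fl_fl]
  rfl

theorem gadc_flip (γ ν : ℝ) (ρ : Matrix (Fin 2) (Fin 2) ℂ) :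
    gadc γ (1 - ν) ρ = (gadc γ ν (ρ.submatrix fl fl)).submatrix fl fl := by
  ext x y
  fin_cases x <;> fin_cases y <;> simp [gadc, fl] <;> ring

/-- relabelling inputs and outputs does not increase the Holevo capacity -/
theorem holevoCapacity_le_of_reindex {X X' Y Y' : Type*} [Fintype X] [Fintype X']
    [Fintype Y] [DecidableEq Y] [Fintype Y'] [DecidableEq Y']
    (Φ : Matrix X X ℂ → Matrix Y Y ℂ) (Φ' : Matrix X' X' ℂ → Matrix Y' Y' ℂ)
    (e : X ≃ X') (e' : Y' ≃ Y) (hΦ : ∀ ρ, IsState ρ → IsState (Φ ρ))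
    (h : ∀ ρ, Φ' ρ = (Φ (ρ.submatrix e e)).submatrix e' e') :
    holevoCapacity Φ' ≤ holevoCapacity Φ := by
  refine holevoCapacity_le_of_forall _ _ (holevoCapacity_nonneg _) ?_
  intro k q ρ hens
  obtain ⟨hq, hq1, hρ⟩ := hens
  have hens' : IsEnsemble q (fun a => (ρ a).submatrix e e) :=
    ⟨hq, hq1, fun a => isState_submatrix _ (hρ a) e⟩
  have hcap := holevoQuantity_le_capacity Φ hΦ q _ hens'
  refine le_trans (le_of_eq ?_) hcap
  unfold holevoQuantity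
  simp only [h]
  have hst : ∀ a, IsState (Φ ((ρ a).submatrix e e)) := fun a => hΦ _ (hens'.2.2 a)
  have hsum : ∑ a, (q a : ℂ) • (Φ ((ρ a).submatrix e e)).submatrix e' e' =
      (∑ a, (q a : ℂ) • Φ ((ρ a).submatrix e e)).submatrix e' e' := by
    ext x y
    simp [Matrix.sum_apply]
  rw [hsum, vnEntropy_submatrix _ (mixture_isState q _ hq hq1 hst).1 e']
  congr 1
  refine Finset.sum_congr rfl fun a _ => ?_
  rw [vnEntropy_submatrix _ (hst a).1 e']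

theorem holevoCapacity_tensorPow_flip (γ ν : ℝ) (hγ0 : 0 ≤ γ) (hγ1 : γ ≤ 1) (hν0 : 0 ≤ ν)
    (hν1 : ν ≤ 1) (n : ℕ) :
    holevoCapacity (tensorPow (gadc γ (1 - ν)) n) = holevoCapacity (tensorPow (gadc γ ν) n) := by
  apply le_antisymm
  · exact holevoCapacity_le_of_reindex _ _ (fln n) (fln n)
      (fun σ hσ => tensorPow_isState γ ν hγ0 hγ1 hν0 hν1 n σ hσ) (tensorPow_flip γ ν n)
  · refine holevoCapacity_le_of_reindex _ _ (fln n) (fln n)
      (fun σ hσ => tensorPow_isState γ (1 - ν) hγ0 hγ1 (by linarith) (by linarith) n σ hσ) ?_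
    intro ρ
    have h := tensorPow_flip γ (1 - ν) n ρ
    rwa [sub_sub_cancel] at h

theorem holevoCapacity_gadc_flip (γ ν : ℝ) (hγ0 : 0 ≤ γ) (hγ1 : γ ≤ 1) (hν0 : 0 ≤ ν)
    (hν1 : ν ≤ 1) :
    holevoCapacity (gadc γ (1 - ν)) = holevoCapacity (gadc γ ν) := by
  apply le_antisymm
  · exact holevoCapacity_le_of_reindex _ _ fl fl
      (fun σ hσ => gadc_isState γ ν hγ0 hγ1 hν0 hν1 σ hσ) (gadc_flip γ ν)
  · refine holevoCapacity_le_of_reindex _ _ fl fl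
      (fun σ hσ => gadc_isState γ (1 - ν) hγ0 hγ1 (by linarith) (by linarith) σ hσ) ?_
    intro ρ
    have h := gadc_flip γ (1 - ν) ρ
    rwa [sub_sub_cancel] at h

theorem classicalCapacity_gadc_flip (γ ν : ℝ) (hγ0 : 0 ≤ γ) (hγ1 : γ ≤ 1) (hν0 : 0 ≤ ν)
    (hν1 : ν ≤ 1) :
    classicalCapacity (gadc γ (1 - ν)) = classicalCapacity (gadc γ ν) := by
  unfold classicalCapacity
  simp only [holevoCapacity_tensorPow_flip γ ν hγ0 hγ1 hν0 hν1]

/-- the mirror image of `classicalCapacity_gadc_le_ad` -/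
theorem classicalCapacity_gadc_le_ad' (γ ν : ℝ) (hγ0 : 0 ≤ γ) (hγ1 : γ ≤ 1) (hν0 : 0 ≤ ν)
    (hν1 : ν ≤ 1) :
    classicalCapacity (gadc γ ν) ≤ classicalCapacity (gadc (γ * ν) 0) := by
  rw [← classicalCapacity_gadc_flip γ ν hγ0 hγ1 hν0 hν1]
  have h := classicalCapacity_gadc_le_ad γ (1 - ν) hγ0 hγ1 (by linarith) (by linarith)
  rwa [sub_sub_cancel] at h

/-- Everything that follows for general parameters from additivity for amplitude damping. -/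
theorem gadc_consequences
    (Had : ∀ g : ℝ, 0 ≤ g → g ≤ 1 → classicalCapacity (gadc g 0) = holevoCapacity (gadc g 0))
    (γ ν : ℝ) (hγ0 : 0 ≤ γ) (hγ1 : γ ≤ 1) (hν0 : 0 ≤ ν) (hν1 : ν ≤ 1) :
    classicalCapacity (gadc γ 1) = holevoCapacity (gadc γ 1) ∧
    holevoCapacity (gadc γ ν) ≤ classicalCapacity (gadc γ ν) ∧
    classicalCapacity (gadc γ ν) ≤ holevoCapacity (gadc (γ * (1 - ν)) 0) ∧
    classicalCapacity (gadc γ ν) ≤ holevoCapacity (gadc (γ * ν) 0) := by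
  refine ⟨?_, holevoCapacity_le_classical γ ν hγ0 hγ1 hν0 hν1, ?_, ?_⟩
  · have h1 := classicalCapacity_gadc_flip γ 0 hγ0 hγ1 le_rfl zero_le_one
    have h2 := holevoCapacity_gadc_flip γ 0 hγ0 hγ1 le_rfl zero_le_one
    rw [sub_zero] at h1 h2
    rw [h1, h2]
    exact Had γ hγ0 hγ1
  · rw [← Had (γ * (1 - ν)) (mul_nonneg hγ0 (by linarith)) (by nlinarith)]
    exact classicalCapacity_gadc_le_ad γ ν hγ0 hγ1 hν0 hν1
  · rw [← Had (γ * ν) (mul_nonneg hγ0 hν0) (by nlinarith)]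
    exact classicalCapacity_gadc_le_ad' γ ν hγ0 hγ1 hν0 hν1

end Vale.Agent.P358
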