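import Vale.Agent.P358.DetPinch
import Vale.Agent.P358.Spectral

/-!
P358, amplitude damping: the determinant inequality behind the entropy lemma.

For `w = [[diag p, X],[X^H, Q]]` positive semidefinite write `X = diag (sqrt p) * K`,
`Q = K^H K + R` (`exists_gauge`).  For the output matrix
`Om = [[diag p + g Q, sqrt c X],[sqrt c X^H, c Q]]` and every `s > 0` (`det_key`):
`det (s + c Q) * det (s + g Q) * prod ((s + z k) (s + y k) + s p k)
   <= det (s + Om) * prod ((s + z k) (s + y k))`, `y k = g Q_kk`, `z k = c (K K^H)_kk`.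
-/

open Matrix Finset
open scoped ComplexOrder

namespace P358

variable {n : Type*} [Fintype n] [DecidableEq n]

/-- Woodbury-type identity, abstract form. -/
theorem woodbury_abs (K Ks G Gi D Di : Matrix n n ℂ) (c : ℂ)
    (hG : Gi * G = 1) (hD : D * Di = 1) (hDG : c • (Ks * K) = D - G) :
    (1 + c • (K * Gi * Ks)) * (1 - c • (K * Di * Ks)) = 1 := by
  have h1 : K * Gi * (c • (Ks * K)) * Di * Ks = K * Gi * Ks - K * Di * Ks := by
    rw [hDG]
    have : K * Gi * (D - G) * Di * Ks = K * Gi * (D * Di) * Ks - K * (Gi * G) * Di * Ks := by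
      noncomm_ring
    rw [this, hD, hG]
    simp
  have h2 : (1 + c • (K * Gi * Ks)) * (1 - c • (K * Di * Ks)) =
      1 + c • (K * Gi * Ks) - c • (K * Di * Ks) - c • (K * Gi * (c • (Ks * K)) * Di * Ks) := by
    simp only [Matrix.mul_smul, Matrix.smul_mul, Matrix.add_mul, Matrix.mul_sub, Matrix.one_mul,
      Matrix.mul_one, Matrix.mul_assoc, smul_add]
    abel
  rw [h2, h1, smul_sub]
  abel

theorem posDef_smul_one_add {A : Matrix n n ℂ} (hA : A.PosSemidef) {s : ℝ} (hs : 0 < s) :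
    ((s : ℂ) • (1 : Matrix n n ℂ) + A).PosDef := by
  have h1 : ((s : ℂ) • (1 : Matrix n n ℂ)).PosDef :=
    PosDef.one.smul (by exact_mod_cast hs : (0 : ℂ) < (s : ℂ))
  exact h1.add_posSemidef hA

theorem posSemidef_real_smul {A : Matrix n n ℂ} (hA : A.PosSemidef) {c : ℝ} (hc : 0 ≤ c) :
    ((c : ℂ) • A).PosSemidef :=
  hA.smul (by exact_mod_cast hc : (0 : ℂ) ≤ (c : ℂ))

theorem smul_one_add_fromBlocks' (s : ℂ) (A B C D : Matrix n n ℂ) :
    s • (1 : Matrix (n ⊕ n) (n ⊕ n) ℂ) + fromBlocks A B C D =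
      fromBlocks (s • 1 + A) B C (s • 1 + D) := by
  rw [← fromBlocks_one, fromBlocks_smul, fromBlocks_add]
  simp

/-- The Schur complement of the output matrix, in pinchable form. -/
theorem schur_form (p : n → ℝ) (hp : ∀ k, 0 ≤ p k) (K R Q X : Matrix n n ℂ) (hR : R.PosSemidef)
    (hQ : Q = Kᴴ * K + R)
    (hX : X = diagonal (fun k => ((Real.sqrt (p k) : ℝ) : ℂ)) * K)
    (c s : ℝ) (hc : 0 ≤ c) (hs : 0 < s) :
    diagonal (fun k => ((p k : ℝ) : ℂ)) -
        (c : ℂ) • (X * ((s : ℂ) • (1 : Matrix n n ℂ) + (c : ℂ) • Q)⁻¹ * Xᴴ) =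
      diagonal (fun k => ((Real.sqrt (s * p k) : ℝ) : ℂ)) *
        ((s : ℂ) • (1 + (c : ℂ) • (K * ((s : ℂ) • (1 : Matrix n n ℂ) + (c : ℂ) • R)⁻¹ * Kᴴ)))⁻¹ *
        diagonal (fun k => ((Real.sqrt (s * p k) : ℝ) : ℂ)) := by
  have hQpsd : Q.PosSemidef := hQ ▸ (posSemidef_conjTranspose_mul_self K).add hR
  set D' := (s : ℂ) • (1 : Matrix n n ℂ) + (c : ℂ) • Q with hD'def
  have hD' : D'.PosDef := posDef_smul_one_add (posSemidef_real_smul hQpsd hc) hs
  set G := (s : ℂ) • (1 : Matrix n n ℂ) + (c : ℂ) • R with hGdef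
  have hG : G.PosDef := posDef_smul_one_add (posSemidef_real_smul hR hc) hs
  set Dp : Matrix n n ℂ := diagonal (fun k => ((Real.sqrt (p k) : ℝ) : ℂ)) with hDp
  have hsC : (s : ℂ) ≠ 0 := by exact_mod_cast hs.ne'
  have hW := woodbury_abs K Kᴴ G G⁻¹ D' D'⁻¹ (c : ℂ)
    (Matrix.nonsing_inv_mul _ ((Matrix.isUnit_iff_isUnit_det _).1 hG.isUnit))
    (Matrix.mul_nonsing_inv _ ((Matrix.isUnit_iff_isUnit_det _).1 hD'.isUnit))
    (by rw [hD'def, hGdef, hQ, smul_add]; abel)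
  have hZinv : ((s : ℂ) • (1 + (c : ℂ) • (K * G⁻¹ * Kᴴ)))⁻¹ =
      (s : ℂ)⁻¹ • (1 - (c : ℂ) • (K * D'⁻¹ * Kᴴ)) := by
    apply Matrix.inv_eq_right_inv
    rw [Matrix.smul_mul, Matrix.mul_smul, hW, smul_smul, mul_inv_cancel₀ hsC, one_smul]
  rw [hZinv]
  have hS : diagonal (fun k => ((Real.sqrt (s * p k) : ℝ) : ℂ)) =
      ((Real.sqrt s : ℝ) : ℂ) • Dp := by
    rw [hDp, ← diagonal_smul]
    congr 1
    funext k
    simp [Real.sqrt_mul hs.le]
  have hDpH : Dpᴴ = Dp := diag_real_conjTranspose _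
  have hDpDp : Dp * Dp = diagonal (fun k => ((p k : ℝ) : ℂ)) := by
    rw [hDp, diagonal_mul_diagonal]
    congr 1
    funext k
    rw [← Complex.ofReal_mul, Real.mul_self_sqrt (hp k)]
  have hss : ((Real.sqrt s : ℝ) : ℂ) * ((s : ℂ)⁻¹ * ((Real.sqrt s : ℝ) : ℂ)) = 1 := by
    have : ((Real.sqrt s : ℝ) : ℂ) * ((Real.sqrt s : ℝ) : ℂ) = (s : ℂ) := by
      rw [← Complex.ofReal_mul, Real.mul_self_sqrt hs.le]
    calc _ = (s : ℂ)⁻¹ * (((Real.sqrt s : ℝ) : ℂ) * ((Real.sqrt s : ℝ) : ℂ)) := by ring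
      _ = 1 := by rw [this, inv_mul_cancel₀ hsC]
  rw [hS, hX, conjTranspose_mul, hDpH, ← hDpDp]
  simp only [Matrix.smul_mul, Matrix.mul_smul, smul_smul, Matrix.mul_sub,
    Matrix.sub_mul, Matrix.mul_one, Matrix.mul_assoc, smul_sub]
  have h2 : ((Real.sqrt s : ℝ) : ℂ) * ((s : ℂ)⁻¹ * (c : ℂ) * ((Real.sqrt s : ℝ) : ℂ)) = (c : ℂ) := by
    calc _ = (c : ℂ) * (((Real.sqrt s : ℝ) : ℂ) * ((s : ℂ)⁻¹ * ((Real.sqrt s : ℝ) : ℂ))) := by ring
      _ = (c : ℂ) := by rw [hss, mul_one]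
  rw [hss, h2, one_smul]

/-- product comparison used after pinching -/
theorem prod_compare (a b y t : n → ℝ) (ha : ∀ k, 0 < a k) (hab : ∀ k, a k ≤ b k)
    (hy : ∀ k, 0 < y k) (ht : ∀ k, 0 ≤ t k) :
    (∏ k, (b k * y k + t k)) * ∏ k, (a k * y k) ≤ (∏ k, (a k * y k + t k)) * ∏ k, (b k * y k) := by
  rw [← Finset.prod_mul_distrib, ← Finset.prod_mul_distrib]
  apply Finset.prod_le_prod
  · intro k _
    have h1 := ha k
    have h2 := hy k
    have h3 := ht k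
    have h4 : 0 < b k := lt_of_lt_of_le h1 (hab k)
    positivity
  · intro k _
    have h1 := ha k
    have h2 := hy k
    have h3 := ht k
    have h4 := hab k
    have : t k * (a k * y k) ≤ t k * (b k * y k) :=
      mul_le_mul_of_nonneg_left (mul_le_mul_of_nonneg_right h4 h2.le) h3
    nlinarith

theorem det_key (p : n → ℝ) (hp : ∀ k, 0 ≤ p k) (K R Q X : Matrix n n ℂ) (hR : R.PosSemidef)
    (hQ : Q = Kᴴ * K + R)
    (hX : X = diagonal (fun k => ((Real.sqrt (p k) : ℝ) : ℂ)) * K)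
    (g c s : ℝ) (hg : 0 ≤ g) (hc : 0 ≤ c) (hs : 0 < s) :
    (((s : ℂ) • (1 : Matrix n n ℂ) + (c : ℂ) • Q).det).re *
        (((s : ℂ) • (1 : Matrix n n ℂ) + (g : ℂ) • Q).det).re *
        ∏ k, ((s + c * ((K * Kᴴ) k k).re) * (s + g * (Q k k).re) + s * p k) ≤
      (((s : ℂ) • (1 : Matrix (n ⊕ n) (n ⊕ n) ℂ) +
          fromBlocks (diagonal (fun k => ((p k : ℝ) : ℂ)) + (g : ℂ) • Q)
            (((Real.sqrt c : ℝ) : ℂ) • X) (((Real.sqrt c : ℝ) : ℂ) • Xᴴ) ((c : ℂ) • Q)).det).re *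
        ∏ k, ((s + c * ((K * Kᴴ) k k).re) * (s + g * (Q k k).re)) := by
  have hQpsd : Q.PosSemidef := hQ ▸ (posSemidef_conjTranspose_mul_self K).add hR
  have hform := schur_form p hp K R Q X hR hQ hX c s hc hs
  set D' := (s : ℂ) • (1 : Matrix n n ℂ) + (c : ℂ) • Q with hD'def
  have hD' : D'.PosDef := posDef_smul_one_add (posSemidef_real_smul hQpsd hc) hs
  set Yy := (s : ℂ) • (1 : Matrix n n ℂ) + (g : ℂ) • Q with hYydef
  have hYy : Yy.PosDef := posDef_smul_one_add (posSemidef_real_smul hQpsd hg) hs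
  set G := (s : ℂ) • (1 : Matrix n n ℂ) + (c : ℂ) • R with hGdef
  have hG : G.PosDef := posDef_smul_one_add (posSemidef_real_smul hR hc) hs
  have hKGK : (K * G⁻¹ * Kᴴ).PosSemidef := hG.inv.posSemidef.mul_mul_conjTranspose_same K
  set Z' := (s : ℂ) • (1 + (c : ℂ) • (K * G⁻¹ * Kᴴ)) with hZ'def
  have hZ' : Z'.PosDef :=
    (PosDef.one.add_posSemidef (posSemidef_real_smul hKGK hc)).smul
      (by exact_mod_cast hs : (0 : ℂ) < (s : ℂ))
  set σ : n → ℝ := fun k => Real.sqrt (s * p k) with hσ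
  -- the determinant of the output
  have hdet : ((s : ℂ) • (1 : Matrix (n ⊕ n) (n ⊕ n) ℂ) +
          fromBlocks (diagonal (fun k => ((p k : ℝ) : ℂ)) + (g : ℂ) • Q)
            (((Real.sqrt c : ℝ) : ℂ) • X) (((Real.sqrt c : ℝ) : ℂ) • Xᴴ) ((c : ℂ) • Q)).det =
      D'.det * (Yy + diagonal (fun k => ((σ k : ℝ) : ℂ)) * Z'⁻¹ *
        diagonal (fun k => ((σ k : ℝ) : ℂ))).det := by
    let _i := hD'.isUnit.invertible
    rw [smul_one_add_fromBlocks', det_fromBlocks₂₂, invOf_eq_nonsing_inv, ← hform]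
    congr 2
    have hcc : ((Real.sqrt c : ℝ) : ℂ) * ((Real.sqrt c : ℝ) : ℂ) = (c : ℂ) := by
      rw [← Complex.ofReal_mul, Real.mul_self_sqrt hc]
    rw [Matrix.smul_mul, Matrix.smul_mul, Matrix.mul_smul, smul_smul, hcc, hYydef]
    abel
  have hpin := det_pinch_schur hZ' hYy σ
  have hsC : (s : ℂ) ≠ 0 := by exact_mod_cast hs.ne'
  have hYk : ∀ k, (Yy k k).re = s + g * (Q k k).re := by
    intro k
    simp [hYydef]
  have hZk : ∀ k, (Z' k k).re = s + c * (s * ((K * G⁻¹ * Kᴴ) k k).re) := by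
    intro k
    simp only [hZ'def, Matrix.smul_apply, Matrix.add_apply, Matrix.one_apply_eq, smul_eq_mul,
      Complex.mul_re, Complex.add_re, Complex.one_re, Complex.ofReal_re, Complex.ofReal_im,
      Complex.add_im, Complex.one_im, Complex.mul_im]
    ring
  have hσk : ∀ k, σ k ^ 2 = s * p k := fun k => Real.sq_sqrt (mul_nonneg hs.le (hp k))
  have hζ0 : ∀ k, 0 ≤ ((K * G⁻¹ * Kᴴ) k k).re := fun k =>
    (Complex.le_def.1 (hKGK.diag_nonneg (i := k))).1
  have hζ : ∀ k, s * ((K * G⁻¹ * Kᴴ) k k).re ≤ ((K * Kᴴ) k k).re := by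
    intro k
    have h1 : ((s : ℂ) • (1 : Matrix n n ℂ)).PosDef :=
      PosDef.one.smul (by exact_mod_cast hs : (0 : ℂ) < (s : ℂ))
    have h2 := inv_sub_inv_posSemidef h1 (posSemidef_real_smul hR hc)
    have h3 : ((s : ℂ) • (1 : Matrix n n ℂ))⁻¹ = (s : ℂ)⁻¹ • (1 : Matrix n n ℂ) := by
      apply Matrix.inv_eq_right_inv
      rw [Matrix.smul_mul, Matrix.mul_smul, smul_smul, mul_inv_cancel₀ hsC, one_smul,
        Matrix.one_mul]
    rw [h3, ← hGdef] at h2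
    have h4 := (Complex.le_def.1 ((h2.mul_mul_conjTranspose_same K).diag_nonneg (i := k))).1
    have h5 : K * ((s : ℂ)⁻¹ • (1 : Matrix n n ℂ) - G⁻¹) * Kᴴ =
        (s : ℂ)⁻¹ • (K * Kᴴ) - K * G⁻¹ * Kᴴ := by
      rw [Matrix.mul_sub, Matrix.sub_mul, Matrix.mul_smul, Matrix.smul_mul, Matrix.mul_one]
    rw [h5] at h4
    have h6 : ((s : ℂ)⁻¹ * (K * Kᴴ) k k).re = s⁻¹ * ((K * Kᴴ) k k).re := by
      rw [← Complex.ofReal_inv, Complex.re_ofReal_mul]
    simp only [Matrix.sub_apply, Matrix.smul_apply, smul_eq_mul, Complex.sub_re, Complex.zero_re,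
      h6] at h4
    have h7 : s * ((K * G⁻¹ * Kᴴ) k k).re ≤ s * (s⁻¹ * ((K * Kᴴ) k k).re) :=
      mul_le_mul_of_nonneg_left (by linarith) hs.le
    rwa [← mul_assoc, mul_inv_cancel₀ hs.ne', one_mul] at h7
  have hQk : ∀ k, 0 ≤ (Q k k).re := fun k => (Complex.le_def.1 (hQpsd.diag_nonneg (i := k))).1
  simp only [hYk, hZk, hσk] at hpin
  obtain ⟨dD, hdD0, hdD⟩ := exists_real_of_pos hD'.det_pos
  obtain ⟨dY, hdY0, hdY⟩ := exists_real_of_pos hYy.det_pos
  rw [hdet, hdD, hdY]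
  rw [hdY] at hpin
  simp only [Complex.mul_re, Complex.ofReal_re, Complex.ofReal_im, zero_mul, sub_zero] at hpin ⊢
  set dN := (Yy + diagonal (fun k => ((σ k : ℝ) : ℂ)) * Z'⁻¹ *
        diagonal (fun k => ((σ k : ℝ) : ℂ))).det.re with hdN
  have hcmp := prod_compare (fun k => s + c * (s * ((K * G⁻¹ * Kᴴ) k k).re))
    (fun k => s + c * ((K * Kᴴ) k k).re) (fun k => s + g * (Q k k).re) (fun k => s * p k)
    (fun k => by have := mul_nonneg hc (mul_nonneg hs.le (hζ0 k)); linarith)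
    (fun k => by have := mul_le_mul_of_nonneg_left (hζ k) hc; linarith)
    (fun k => by have := mul_nonneg hg (hQk k); linarith)
    (fun k => mul_nonneg hs.le (hp k))
  set A1 := ∏ k, ((s + c * (s * ((K * G⁻¹ * Kᴴ) k k).re)) * (s + g * (Q k k).re) + s * p k)
  set A0 := ∏ k, ((s + c * (s * ((K * G⁻¹ * Kᴴ) k k).re)) * (s + g * (Q k k).re)) with hA0
  set B1 := ∏ k, ((s + c * ((K * Kᴴ) k k).re) * (s + g * (Q k k).re) + s * p k)
  set B0 := ∏ k, ((s + c * ((K * Kᴴ) k k).re) * (s + g * (Q k k).re)) with hB0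
  have hA0pos : 0 < A0 := by
    apply Finset.prod_pos
    intro k _
    have h1 := mul_nonneg hc (mul_nonneg hs.le (hζ0 k))
    have h2 := mul_nonneg hg (hQk k)
    have h3 : 0 < s + c * (s * ((K * G⁻¹ * Kᴴ) k k).re) := by linarith
    have h4 : 0 < s + g * (Q k k).re := by linarith
    exact mul_pos h3 h4
  have hB0nn : 0 ≤ B0 := by
    apply Finset.prod_nonneg
    intro k _
    have h1 := mul_nonneg hc (le_trans (mul_nonneg hs.le (hζ0 k)) (hζ k))
    have h2 := mul_nonneg hg (hQk k)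
    have h3 : 0 < s + c * ((K * Kᴴ) k k).re := by linarith
    have h4 : 0 < s + g * (Q k k).re := by linarith
    exact (mul_pos h3 h4).le
  -- dY * B1 * A0 ≤ dY * A1 * B0 ≤ A0 * dN * B0
  have h1 : A0 * (dY * B1) ≤ A0 * (dN * B0) := by
    calc A0 * (dY * B1) = dY * (B1 * A0) := by ring
      _ ≤ dY * (A1 * B0) := mul_le_mul_of_nonneg_left hcmp hdY0.le
      _ = (A1 * dY) * B0 := by ring
      _ ≤ (A0 * dN) * B0 := mul_le_mul_of_nonneg_right hpin hB0nn
      _ = A0 * (dN * B0) := by ring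
  have h2 : dY * B1 ≤ dN * B0 := le_of_mul_le_mul_left h1 hA0pos
  calc dD * dY * B1 = dD * (dY * B1) := by ring
    _ ≤ dD * (dN * B0) := mul_le_mul_of_nonneg_left h2 hdD0.le
    _ = dD * dN * B0 := by ring

theorem exists_gauge (p : n → ℝ) (X Q : Matrix n n ℂ)
    (hW : (fromBlocks (diagonal (fun k => ((p k : ℝ) : ℂ))) X Xᴴ Q).PosSemidef) :
    ∃ K R : Matrix n n ℂ, R.PosSemidef ∧
      X = diagonal (fun k => ((Real.sqrt (p k) : ℝ) : ℂ)) * K ∧ Q = Kᴴ * K + R := by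
  set Di : Matrix n n ℂ := diagonal (fun k => (((Real.sqrt (p k))⁻¹ : ℝ) : ℂ)) with hDi
  set Dp : Matrix n n ℂ := diagonal (fun k => ((Real.sqrt (p k) : ℝ) : ℂ)) with hDp
  set Pm : Matrix n n ℂ := diagonal (fun k => ((p k : ℝ) : ℂ)) with hPm
  have hp : ∀ k, 0 ≤ p k := by
    intro k
    have := (Complex.le_def.1 (hW.diag_nonneg (i := Sum.inl k))).1
    simpa [hPm] using this
  have hDiH : Diᴴ = Di := diag_real_conjTranspose _
  -- rows of X with p k = 0 vanish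
  have hX0 : ∀ k j, p k = 0 → X k j = 0 := by
    intro k j hk
    have h := Vale.Agent.P358.psd_entry_le _ hW (Sum.inl k) (Sum.inr j)
    simp only [fromBlocks_apply₁₂, fromBlocks_apply₁₁, hPm, diagonal_apply_eq, Complex.ofReal_re,
      hk, Real.sqrt_zero, zero_mul] at h
    exact norm_le_zero_iff.1 h
  have hXeq : X = Dp * (Di * X) := by
    ext k j
    rw [← Matrix.mul_assoc, hDp, hDi, diagonal_mul_diagonal, diagonal_mul]
    rcases (hp k).eq_or_lt with h0 | hpos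
    · rw [hX0 k j h0.symm]; simp
    · have : Real.sqrt (p k) ≠ 0 := (Real.sqrt_pos.2 hpos).ne'
      rw [← Complex.ofReal_mul, mul_inv_cancel₀ this]
      simp
  have hDPD : Di * Pm * Di * Di = Di := by
    rw [hDi, hPm, diagonal_mul_diagonal, diagonal_mul_diagonal, diagonal_mul_diagonal]
    congr 1
    funext k
    rcases (hp k).eq_or_lt with h0 | hpos
    · simp [← h0]
    · have h1 : Real.sqrt (p k) ≠ 0 := (Real.sqrt_pos.2 hpos).ne'
      have h2 : (Real.sqrt (p k))⁻¹ * p k * (Real.sqrt (p k))⁻¹ = 1 := by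
        nth_rewrite 2 [← Real.mul_self_sqrt (hp k)]
        field_simp
      rw [← Complex.ofReal_mul, ← Complex.ofReal_mul, h2]
      simp
  refine ⟨Di * X, Q - (Di * X)ᴴ * (Di * X), ?_, hXeq, by abel⟩
  have h := hW.conjTranspose_mul_mul_same (fromRows (-(Di * (Di * X))) (1 : Matrix n n ℂ))
  rw [conjTranspose_fromRows_eq_fromCols_conjTranspose, fromCols_mul_fromBlocks,
    fromCols_mul_fromRows] at h
  convert h using 1
  simp only [conjTranspose_neg, conjTranspose_mul, conjTranspose_one, hDiH, Matrix.neg_mul,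
    Matrix.mul_neg, Matrix.one_mul, Matrix.mul_one, Matrix.add_mul]
  have e1 : Xᴴ * Di * Di * Pm * (Di * (Di * X)) = Xᴴ * Di * (Di * X) := by
    have : Xᴴ * Di * Di * Pm * (Di * (Di * X)) = Xᴴ * Di * (Di * Pm * Di * Di) * X := by
      simp only [Matrix.mul_assoc]
    rw [this, hDPD]
    simp only [Matrix.mul_assoc]
  rw [e1]
  simp only [Matrix.mul_assoc]
  abel

theorem gauge_trace_le (K R Q : Matrix n n ℂ) (hR : R.PosSemidef) (hQ : Q = Kᴴ * K + R) :
    ∑ k, ((K * Kᴴ) k k).re ≤ Q.trace.re := by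
  have h1 : (K * Kᴴ).trace = (Kᴴ * K).trace := Matrix.trace_mul_comm _ _
  have h2 : ∑ k, ((K * Kᴴ) k k).re = (K * Kᴴ).trace.re := by
    simp [Matrix.trace]
  have h3 : 0 ≤ R.trace.re := (Complex.le_def.1 hR.trace_nonneg).1
  rw [h2, h1, hQ, Matrix.trace_add, Complex.add_re]
  linarith

end P358
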