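import Vale.Agent.P358.AD.Bdd2
import Vale.Agent.P358.AD.Blk
import Vale.Agent.P358.AD.ChanInst
import Vale.Agent.P358.AD.CapBook

/-!
Transfer of ensembles through the splitting of the first qubit.
-/

namespace Vale.Agent.P358
open Matrix
open scoped ComplexOrder

/-- transfer of an ensemble through the identification `consE n`
(`tensorPow_succ_blocks`, `vnEntropy_submatrix`, `isState_submatrix`, `tensorPow_posSemidef`). -/
theorem holevoQuantity_succ_eq (γ : ℝ) (h0 : 0 ≤ γ) (h1 : γ ≤ 1) (n : ℕ) {k : ℕ} (q : Fin k → ℝ)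
    (ρ : Fin k → Matrix (Fin (n + 1) → Fin 2) (Fin (n + 1) → Fin 2) ℂ) (hE : IsEnsemble q ρ) :
    IsEnsemble q (fun a => (ρ a).submatrix (consE n) (consE n)) ∧
    holevoQuantity (tensorPow (gadc γ 0) (n + 1)) q ρ =
      holevoQuantity (NM γ (tensorPow (gadc γ 0) n)) q
        (fun a => (ρ a).submatrix (consE n) (consE n)) := by
  obtain ⟨hq, hq1, hρ⟩ := hE
  refine ⟨⟨hq, hq1, fun a => isState_submatrix _ (hρ a) (consE n)⟩, ?_⟩
  unfold holevoQuantity
  have hst : ∀ a, IsState (tensorPow (gadc γ 0) (n + 1) (ρ a)) :=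
    fun a => tensorPow_isState γ 0 h0 h1 le_rfl zero_le_one (n + 1) (ρ a) (hρ a)
  simp only [← tensorPow_succ_blocks]
  have hsum : ∑ a, (q a : ℂ) • (tensorPow (gadc γ 0) (n + 1) (ρ a)).submatrix (consE n) (consE n) =
      (∑ a, (q a : ℂ) • tensorPow (gadc γ 0) (n + 1) (ρ a)).submatrix (consE n) (consE n) := by
    ext x y
    simp [Matrix.sum_apply]
  rw [hsum, vnEntropy_submatrix _ (mixture_isState q _ hq hq1 hst).1 (consE n)]
  congr 1
  refine Finset.sum_congr rfl fun a _ => ?_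
  rw [vnEntropy_submatrix _ (hst a).1 (consE n)]

end Vale.Agent.P358
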