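import Vale.Agent.P358.AD.Add
import Vale.Agent.P358.AD.FinalSucc
import Vale.Agent.P358.AD.CapBook

/-!
`C = χ` for the amplitude damping channel.
-/

namespace Vale.Agent.P358
open Matrix
open scoped ComplexOrder

theorem holevoCapacity_succ_le (γ : ℝ) (h0 : 0 ≤ γ) (h1 : γ ≤ 1) (n : ℕ) :
    holevoCapacity (tensorPow (gadc γ 0) (n + 1)) ≤
      holevoCapacity (gadc γ 0) + holevoCapacity (tensorPow (gadc γ 0) n) := by
  refine holevoCapacity_le_of_forall _ _
    (add_nonneg (holevoCapacity_nonneg _) (holevoCapacity_nonneg _)) ?_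
  intro k q ρ hE
  obtain ⟨hE', heq⟩ := holevoQuantity_succ_eq γ h0 h1 n q ρ hE
  rw [heq]
  exact holevoQuantity_NM_le γ h0 h1 (goodMap_tensorPow γ h0 h1 n) q _ hE'

theorem holevoCapacity_tensorPow_le_ad (γ : ℝ) (h0 : 0 ≤ γ) (h1 : γ ≤ 1) (n : ℕ) :
    holevoCapacity (tensorPow (gadc γ 0) n) ≤ n * holevoCapacity (gadc γ 0) := by
  induction n with
  | zero => simpa using holevoCapacity_tensorPow_zero γ 0 h0 h1 le_rfl zero_le_one
  | succ n ih =>
    have := holevoCapacity_succ_le γ h0 h1 n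
    push_cast
    linarith

/-- **The classical capacity of the amplitude damping channel equals its Holevo capacity.** -/
theorem classicalCapacity_ad (γ : ℝ) (h0 : 0 ≤ γ) (h1 : γ ≤ 1) :
    classicalCapacity (gadc γ 0) = holevoCapacity (gadc γ 0) :=
  classicalCapacity_gadc_eq_of_step γ 0 h0 h1 le_rfl zero_le_one
    (holevoCapacity_succ_le γ h0 h1) (holevoCapacity_tensorPow_zero γ 0 h0 h1 le_rfl zero_le_one)

end Vale.Agent.P358
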