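import Vale.Agent.P358.EtaLemma

/-!
# P358, amplitude damping: the scalar step

For `x, y, z ≥ 0` let `a, b ≥ 0` be the two roots of `t ^ 2 - (x + y + z) t + y z`, i.e. the eigenvalues of
`m m*`, `m = [[sqrt x, sqrt y], [sqrt z, 0]]`.  The function
`G (x, y, z) = η a + η b - η x - η y - η z` (`η = Real.negMulLog`) is subadditive and nonincreasing in
`y` and `z`.  The statement below does not depend on the way the roots are described.
-/

namespace Vale.Agent.P358

open Real

/-- homogeneity of `η` -/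
lemma sg_scale {w u : ℝ} (hw : 0 < w) (hu : 0 ≤ u) :
    w * negMulLog (u / w) = negMulLog u + u * log w := by
  rcases hu.eq_or_lt with rfl | hu
  · simp
  · unfold negMulLog
    rw [log_div hu.ne' hw.ne']
    field_simp
    ring

/-- two pairs with the same sum and the same product have the same entropy -/
lemma sg_pair {a b y z : ℝ} (h1 : a + b = y + z) (h2 : a * b = y * z) :
    negMulLog a + negMulLog b = negMulLog y + negMulLog z := by
  have h : (a - y) * (a - z) = 0 := by
    have h3 : (a - y) * (a - z) = a * a - a * (y + z) + y * z := by ring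
    rw [h3, ← h1, ← h2]
    ring
  rcases mul_eq_zero.1 h with h | h
  · have ha : a = y := by linarith
    have hb : b = z := by linarith
    rw [ha, hb]
  · have ha : a = z := by linarith
    have hb : b = y := by linarith
    rw [ha, hb, add_comm]

section

variable {K : Type*} [Fintype K]

/-- Jensen for the logarithm -/
lemma sg_log_jensen (w t : K → ℝ) (hw : ∀ k, 0 ≤ w k) (hw1 : ∑ k, w k = 1) (ht : ∀ k, 0 < t k) :
    ∑ k, w k * log (t k) ≤ log (∑ k, w k * t k) := by
  have := strictConcaveOn_log_Ioi.concaveOn.le_map_sum (t := Finset.univ) (w := w) (p := t)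
    (fun k _ => hw k) hw1 (fun k _ => ht k)
  simpa only [smul_eq_mul] using this

lemma sg_wsum_pos (w t : K → ℝ) (hw : ∀ k, 0 ≤ w k) (hw1 : ∑ k, w k = 1) (ht : ∀ k, 0 < t k) :
    0 < ∑ k, w k * t k := by
  have h0 : 0 ≤ ∑ k, w k * t k := Finset.sum_nonneg fun k _ => mul_nonneg (hw k) (ht k).le
  rcases h0.eq_or_lt with h | h
  · exfalso
    have h' := (Finset.sum_eq_zero_iff_of_nonneg
      (fun k _ => mul_nonneg (hw k) (ht k).le)).1 h.symm
    have : ∑ k, w k = 0 := by
      refine Finset.sum_eq_zero fun k hk => ?_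
      rcases mul_eq_zero.1 (h' k hk) with h2 | h2
      · exact h2
      · exact absurd h2 (ht k).ne'
    rw [hw1] at this
    exact one_ne_zero this
  · exact h

/-- joint convexity of `log (1 + c / (p r))`, in the form of a Jensen inequality -/
lemma sg_jensen (w p r : K → ℝ) (c P R : ℝ) (hw : ∀ k, 0 ≤ w k) (hw1 : ∑ k, w k = 1)
    (hp : ∀ k, 0 < p k) (hr : ∀ k, 0 < r k) (hc : 0 ≤ c)
    (hP : ∑ k, w k * p k ≤ P) (hR : ∑ k, w k * r k ≤ R) :
    log (1 + c / (P * R)) ≤ ∑ k, w k * log (1 + c / (p k * r k)) := by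
  rcases hc.eq_or_lt with rfl | hc
  · simp
  have hP0 := sg_wsum_pos w p hw hw1 hp
  have hR0 := sg_wsum_pos w r hw hw1 hr
  have hPp : 0 < P := lt_of_lt_of_le hP0 hP
  have hRp : 0 < R := lt_of_lt_of_le hR0 hR
  set m : K → ℝ := fun k => 1 + c / (p k * r k) with hm
  have hq : ∀ k, 0 < c / (p k * r k) := fun k => div_pos hc (mul_pos (hp k) (hr k))
  have hm0 : ∀ k, 0 < m k := fun k => by
    have := hq k
    simp only [hm]
    linarith
  set L := ∑ k, w k * log (m k) with hL
  -- first Jensen
  have j1 := sg_log_jensen w (fun k => 1 / m k) hw hw1 (fun k => one_div_pos.2 (hm0 k))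
  have e1 : ∑ k, w k * log (1 / m k) = - L := by
    rw [hL, ← Finset.sum_neg_distrib]
    refine Finset.sum_congr rfl fun k _ => ?_
    rw [one_div, log_inv]
    ring
  rw [e1] at j1
  -- second Jensen
  have j2 := sg_log_jensen w (fun k => c / (p k * r k) / m k) hw hw1
    (fun k => div_pos (hq k) (hm0 k))
  have e2 : ∑ k, w k * log (c / (p k * r k) / m k) =
      log c - ∑ k, w k * log (p k) - ∑ k, w k * log (r k) - L := by
    have : ∀ k, w k * log (c / (p k * r k) / m k) =
        w k * log c - w k * log (p k) - w k * log (r k) - w k * log (m k) := by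
      intro k
      rw [log_div (hq k).ne' (hm0 k).ne', log_div hc.ne' (mul_pos (hp k) (hr k)).ne',
        log_mul (hp k).ne' (hr k).ne']
      ring
    simp only [this, Finset.sum_sub_distrib, ← Finset.sum_mul, hw1, one_mul, hL]
  rw [e2] at j2
  have j3 : ∑ k, w k * log (p k) ≤ log P :=
    (sg_log_jensen w p hw hw1 hp).trans (log_le_log hP0 hP)
  have j4 : ∑ k, w k * log (r k) ≤ log R :=
    (sg_log_jensen w r hw hw1 hr).trans (log_le_log hR0 hR)
  set α := ∑ k, w k * (1 / m k) with hα
  set β := ∑ k, w k * (c / (p k * r k) / m k) with hβ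
  have hαβ : α + β = 1 := by
    rw [hα, hβ, ← Finset.sum_add_distrib]
    refine Eq.trans ?_ hw1
    refine Finset.sum_congr rfl fun k _ => ?_
    have := (hm0 k).ne'
    have h2 : 1 / m k + c / (p k * r k) / m k = 1 := by
      rw [← add_div]
      exact div_self this
    rw [← mul_add, h2, mul_one]
  have hα0 : 0 < α := sg_wsum_pos w _ hw hw1 (fun k => one_div_pos.2 (hm0 k))
  have hβ0 : 0 < β := sg_wsum_pos w _ hw hw1 (fun k => div_pos (hq k) (hm0 k))
  have k1 : exp (-L) ≤ α := (le_log_iff_exp_le hα0).1 j1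
  have k2 : c / (P * R) * exp (-L) ≤ β := by
    have h5 : log (c / (P * R)) + -L ≤ log β := by
      rw [log_div hc.ne' (mul_pos hPp hRp).ne', log_mul hPp.ne' hRp.ne']
      linarith
    have h6 := (le_log_iff_exp_le hβ0).1 h5
    rwa [exp_add, exp_log (div_pos hc (mul_pos hPp hRp))] at h6
  have hpos : 0 < 1 + c / (P * R) := by
    have := div_pos hc (mul_pos hPp hRp)
    linarith
  rw [log_le_iff_le_exp hpos]
  have k3 : (1 + c / (P * R)) * exp (-L) ≤ 1 := by
    rw [add_mul, one_mul]
    linarith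
  have k4 : exp (-L) * exp L = 1 := by
    rw [← exp_add]
    simp
  calc 1 + c / (P * R) = (1 + c / (P * R)) * exp (-L) * exp L := by
        rw [mul_assoc, k4, mul_one]
    _ ≤ 1 * exp L := mul_le_mul_of_nonneg_right k3 (exp_pos L).le
    _ = exp L := one_mul _

/-- **Subadditivity and monotonicity of the scalar defect.**  `a k, b k` are the roots for `(x k, y k, z k)`,
`A, B` are the roots for `(∑ x, Y, Z)` where `∑ y ≤ Y`, `∑ z ≤ Z`. -/
theorem Gsc_subadd (x y z a b : K → ℝ) (Y Z A B : ℝ)
    (hx : ∀ k, 0 ≤ x k) (hy : ∀ k, 0 ≤ y k) (hz : ∀ k, 0 ≤ z k) (ha : ∀ k, 0 ≤ a k)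
    (hb : ∀ k, 0 ≤ b k) (hA : 0 ≤ A) (hB : 0 ≤ B)
    (hab1 : ∀ k, a k + b k = x k + y k + z k) (hab2 : ∀ k, a k * b k = y k * z k)
    (hY : ∑ k, y k ≤ Y) (hZ : ∑ k, z k ≤ Z)
    (hAB1 : A + B = ∑ k, x k + Y + Z) (hAB2 : A * B = Y * Z) :
    negMulLog A + negMulLog B - negMulLog (∑ k, x k) - negMulLog Y - negMulLog Z ≤
      ∑ k, (negMulLog (a k) + negMulLog (b k) - negMulLog (x k) - negMulLog (y k)
        - negMulLog (z k)) := by
  have hY0 : 0 ≤ Y := le_trans (Finset.sum_nonneg fun k _ => hy k) hY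
  have hZ0 : 0 ≤ Z := le_trans (Finset.sum_nonneg fun k _ => hz k) hZ
  set X := ∑ k, x k with hX
  have hX0 : 0 ≤ X := Finset.sum_nonneg fun k _ => hx k
  rcases hX0.eq_or_lt with hXz | hXp
  · -- all `x k` vanish
    have hxk : ∀ k, x k = 0 := fun k =>
      (Finset.sum_eq_zero_iff_of_nonneg (fun k _ => hx k)).1 hXz.symm k (Finset.mem_univ k)
    have h1 : negMulLog A + negMulLog B = negMulLog Y + negMulLog Z :=
      sg_pair (by rw [hAB1, ← hXz]; ring) hAB2
    have h2 : ∀ k, negMulLog (a k) + negMulLog (b k) - negMulLog (x k) - negMulLog (y k)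
        - negMulLog (z k) = 0 := by
      intro k
      have := sg_pair (a := a k) (b := b k) (y := y k) (z := z k)
        (by rw [hab1, hxk]; ring) (hab2 k)
      rw [this, hxk]
      simp
    rw [Finset.sum_congr rfl (fun k _ => h2 k), ← hXz, h1]
    simp
  -- the weights
  set w : K → ℝ := fun k => x k / X with hw
  have hw0 : ∀ k, 0 ≤ w k := fun k => div_nonneg (hx k) hX0
  have hw1 : ∑ k, w k = 1 := by
    simp only [hw]
    rw [← Finset.sum_div, ← hX]
    exact div_self hXp.ne'
  have hwx : ∀ k, w k = 0 → x k = 0 := by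
    intro k hk
    simp only [hw] at hk
    rcases div_eq_zero_iff.1 hk with h | h
    · exact h
    · exact absurd h hXp.ne'
  have hxw : ∀ k, x k = w k * X := by
    intro k
    simp only [hw]
    field_simp
  -- cancellation, with the convention `t / 0 = 0`
  have hle : ∀ (t : K → ℝ), (∀ k, 0 ≤ t k) → ∀ k, w k * (t k / w k) ≤ t k := by
    intro t ht k
    by_cases h : w k = 0
    · rw [h, zero_mul]
      exact ht k
    · rw [mul_div_cancel₀ _ h]
  let wt : (K ⊕ K) ⊕ (Unit ⊕ Unit) → ℝ := Sum.elim (Sum.elim w w) (fun _ => 1)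
  let uu : (K ⊕ K) ⊕ (Unit ⊕ Unit) → ℝ :=
    Sum.elim (Sum.elim (fun k => a k / w k) (fun k => b k / w k))
      (Sum.elim (fun _ => Y) (fun _ => Z))
  let vv : (K ⊕ K) ⊕ (Unit ⊕ Unit) → ℝ :=
    Sum.elim (Sum.elim (fun k => y k / w k) (fun k => z k / w k))
      (Sum.elim (fun _ => A) (fun _ => B))
  have hwt : ∀ i, 0 ≤ wt i := by
    rintro ((k | k) | i)
    · exact hw0 k
    · exact hw0 k
    · exact zero_le_one
  have huu : ∀ i, 0 ≤ uu i := by
    rintro ((k | k) | (i | i))
    · exact div_nonneg (ha k) (hw0 k)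
    · exact div_nonneg (hb k) (hw0 k)
    · exact hY0
    · exact hZ0
  have hvv : ∀ i, 0 ≤ vv i := by
    rintro ((k | k) | (i | i))
    · exact div_nonneg (hy k) (hw0 k)
    · exact div_nonneg (hz k) (hw0 k)
    · exact hA
    · exact hB
  have hsum : ∑ i, wt i * uu i = ∑ j, wt j * vv j := by
    simp only [wt, uu, vv, Fintype.sum_sum_type, Sum.elim_inl, Sum.elim_inr, Finset.univ_unique,
      Finset.sum_singleton, one_mul]
    have hk : ∀ k, w k * (a k / w k) + w k * (b k / w k) =
        w k * (y k / w k) + w k * (z k / w k) + x k := by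
      intro k
      by_cases h : w k = 0
      · rw [h, hwx k h]
        simp
      · rw [mul_div_cancel₀ _ h, mul_div_cancel₀ _ h, mul_div_cancel₀ _ h, mul_div_cancel₀ _ h,
          hab1 k]
        ring
    have hs : ∑ k, w k * (a k / w k) + ∑ k, w k * (b k / w k) =
        ∑ k, w k * (y k / w k) + ∑ k, w k * (z k / w k) + X := by
      rw [hX, ← Finset.sum_add_distrib, ← Finset.sum_add_distrib, ← Finset.sum_add_distrib]
      exact Finset.sum_congr rfl fun k _ => hk k
    linarith
  have hlog : ∀ s, 0 < s → ∑ j, wt j * log (s + vv j) ≤ ∑ i, wt i * log (s + uu i) := by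
    intro s hs
    simp only [wt, uu, vv, Fintype.sum_sum_type, Sum.elim_inl, Sum.elim_inr, Finset.univ_unique,
      Finset.sum_singleton, one_mul]
    have hp : ∀ k, 0 < s + y k / w k := fun k => by
      have := div_nonneg (hy k) (hw0 k)
      linarith
    have hr : ∀ k, 0 < s + z k / w k := fun k => by
      have := div_nonneg (hz k) (hw0 k)
      linarith
    have hJ := sg_jensen w (fun k => s + y k / w k) (fun k => s + z k / w k) (s * X) (s + Y) (s + Z)
      hw0 hw1 hp hr (mul_nonneg hs.le hX0)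
      (by
        simp only [mul_add, Finset.sum_add_distrib, ← Finset.sum_mul, hw1, one_mul]
        have := Finset.sum_le_sum fun k (_ : k ∈ Finset.univ) => hle y hy k
        linarith)
      (by
        simp only [mul_add, Finset.sum_add_distrib, ← Finset.sum_mul, hw1, one_mul]
        have := Finset.sum_le_sum fun k (_ : k ∈ Finset.univ) => hle z hz k
        linarith)
    have hk : ∀ k, w k * log (1 + s * X / ((s + y k / w k) * (s + z k / w k))) =
        w k * log (s + a k / w k) + w k * log (s + b k / w k) - w k * log (s + y k / w k)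
          - w k * log (s + z k / w k) := by
      intro k
      by_cases h : w k = 0
      · rw [h]
        simp
      · have hpa : 0 < s + a k / w k := by
          have := div_nonneg (ha k) (hw0 k)
          linarith
        have hpb : 0 < s + b k / w k := by
          have := div_nonneg (hb k) (hw0 k)
          linarith
        have hprod : (s + a k / w k) * (s + b k / w k) =
            (s + y k / w k) * (s + z k / w k) + s * X := by
          have h1 : (s + a k / w k) * (s + b k / w k) =
              s * s + s * ((a k + b k) / w k) + a k * b k / (w k * w k) := by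
            field_simp
            ring
          have h2 : (s + y k / w k) * (s + z k / w k) =
              s * s + s * ((y k + z k) / w k) + y k * z k / (w k * w k) := by
            field_simp
            ring
          have h3 : (a k + b k) / w k = (y k + z k) / w k + X := by
            rw [hab1 k, hxw k]
            field_simp
            ring
          rw [h1, h2, h3, hab2 k]
          ring
        have h4 : 1 + s * X / ((s + y k / w k) * (s + z k / w k)) =
            (s + a k / w k) * (s + b k / w k) / ((s + y k / w k) * (s + z k / w k)) := by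
          rw [hprod, add_div, div_self (mul_pos (hp k) (hr k)).ne']
        rw [h4, log_div (mul_pos hpa hpb).ne' (mul_pos (hp k) (hr k)).ne',
          log_mul hpa.ne' hpb.ne', log_mul (hp k).ne' (hr k).ne']
        ring
    have hsA : 0 < s + A := by linarith
    have hsB : 0 < s + B := by linarith
    have hsY : 0 < s + Y := by linarith
    have hsZ : 0 < s + Z := by linarith
    have hAB : log (1 + s * X / ((s + Y) * (s + Z))) =
        log (s + A) + log (s + B) - log (s + Y) - log (s + Z) := by
      have hprod : (s + A) * (s + B) = (s + Y) * (s + Z) + s * X := by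
        have h1 : (s + A) * (s + B) = s * s + s * (A + B) + A * B := by ring
        rw [h1, hAB1, hAB2]
        ring
      have h4 : 1 + s * X / ((s + Y) * (s + Z)) = (s + A) * (s + B) / ((s + Y) * (s + Z)) := by
        rw [hprod, add_div, div_self (mul_pos hsY hsZ).ne']
      rw [h4, log_div (mul_pos hsA hsB).ne' (mul_pos hsY hsZ).ne', log_mul hsA.ne' hsB.ne',
        log_mul hsY.ne' hsZ.ne']
      ring
    rw [hAB, Finset.sum_congr rfl (fun k _ => hk k)] at hJ
    simp only [Finset.sum_sub_distrib, Finset.sum_add_distrib] at hJ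
    linarith
  have main := eta_sum_le wt uu wt vv hwt hwt huu hvv rfl hsum hlog
  simp only [wt, uu, vv, Fintype.sum_sum_type, Sum.elim_inl, Sum.elim_inr, Finset.univ_unique,
    Finset.sum_singleton, one_mul] at main
  -- back to the original variables
  have hk : ∀ k, w k * negMulLog (a k / w k) + w k * negMulLog (b k / w k)
      - w k * negMulLog (y k / w k) - w k * negMulLog (z k / w k) =
      (negMulLog (a k) + negMulLog (b k) - negMulLog (x k) - negMulLog (y k) - negMulLog (z k))
        - x k * log X := by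
    intro k
    by_cases h : w k = 0
    · have hx0 := hwx k h
      have := sg_pair (a := a k) (b := b k) (y := y k) (z := z k)
        (by rw [hab1, hx0]; ring) (hab2 k)
      rw [h, this, hx0]
      simp
    · have hwp : 0 < w k := lt_of_le_of_ne (hw0 k) (Ne.symm h)
      have hxp : 0 < x k := by
        rw [hxw k]
        exact mul_pos hwp hXp
      rw [sg_scale hwp (ha k), sg_scale hwp (hb k), sg_scale hwp (hy k), sg_scale hwp (hz k)]
      have hlw : log (w k) = log (x k) - log X := by
        simp only [hw]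
        rw [log_div hxp.ne' hXp.ne']
      have hab := hab1 k
      have e : negMulLog (x k) = - x k * log (x k) := rfl
      rw [hlw, e]
      have e2 : a k = x k + y k + z k - b k := by linarith
      rw [e2]
      ring_nf
  have hs := Finset.sum_congr rfl (fun k (_ : k ∈ Finset.univ) => hk k)
  simp only [Finset.sum_sub_distrib, Finset.sum_add_distrib, ← Finset.sum_mul] at hs
  rw [← hX] at hs
  simp only [Finset.sum_sub_distrib, Finset.sum_add_distrib]
  have e : negMulLog X = - X * log X := rfl
  rw [e]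
  linarith

end

/-! ### explicit roots -/

/-- the larger root of `t ^ 2 - (x + y + z) t + y z` -/
noncomputable def lamP (x y z : ℝ) : ℝ := ((x + y + z) + sqrt ((x + y + z) ^ 2 - 4 * (y * z))) / 2

/-- the smaller root of `t ^ 2 - (x + y + z) t + y z` -/
noncomputable def lamM (x y z : ℝ) : ℝ := ((x + y + z) - sqrt ((x + y + z) ^ 2 - 4 * (y * z))) / 2

lemma lam_disc_nonneg {x y z : ℝ} (hx : 0 ≤ x) (hy : 0 ≤ y) (hz : 0 ≤ z) :
    0 ≤ (x + y + z) ^ 2 - 4 * (y * z) := by
  have h : (x + y + z) ^ 2 - 4 * (y * z) = x ^ 2 + 2 * (x * y) + 2 * (x * z) + (y - z) ^ 2 := by ring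
  rw [h]
  positivity

lemma lamP_add_lamM (x y z : ℝ) : lamP x y z + lamM x y z = x + y + z := by
  unfold lamP lamM
  ring

lemma lamP_mul_lamM {x y z : ℝ} (hx : 0 ≤ x) (hy : 0 ≤ y) (hz : 0 ≤ z) :
    lamP x y z * lamM x y z = y * z := by
  unfold lamP lamM
  have h := Real.sq_sqrt (lam_disc_nonneg hx hy hz)
  have e : ((x + y + z) + sqrt ((x + y + z) ^ 2 - 4 * (y * z))) / 2 *
      (((x + y + z) - sqrt ((x + y + z) ^ 2 - 4 * (y * z))) / 2) =
      ((x + y + z) ^ 2 - sqrt ((x + y + z) ^ 2 - 4 * (y * z)) ^ 2) / 4 := by ring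
  rw [e, h]
  ring

lemma lamP_nonneg {x y z : ℝ} (hx : 0 ≤ x) (hy : 0 ≤ y) (hz : 0 ≤ z) : 0 ≤ lamP x y z := by
  unfold lamP
  have := Real.sqrt_nonneg ((x + y + z) ^ 2 - 4 * (y * z))
  positivity

lemma lamM_nonneg {x y z : ℝ} (hx : 0 ≤ x) (hy : 0 ≤ y) (hz : 0 ≤ z) : 0 ≤ lamM x y z := by
  unfold lamM
  have h1 : sqrt ((x + y + z) ^ 2 - 4 * (y * z)) ≤ sqrt ((x + y + z) ^ 2) :=
    Real.sqrt_le_sqrt (by nlinarith [mul_nonneg hy hz])
  rw [Real.sqrt_sq (by positivity)] at h1
  linarith

/-- the scalar defect `η λ₊ + η λ₋ - η x - η y - η z` -/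
noncomputable def Gsc (x y z : ℝ) : ℝ :=
  negMulLog (lamP x y z) + negMulLog (lamM x y z) - negMulLog x - negMulLog y - negMulLog z

/-- any description of the two roots gives the same value -/
lemma Gsc_eq_of_roots {x y z a b : ℝ} (hx : 0 ≤ x) (hy : 0 ≤ y) (hz : 0 ≤ z)
    (h1 : a + b = x + y + z) (h2 : a * b = y * z) :
    negMulLog a + negMulLog b - negMulLog x - negMulLog y - negMulLog z = Gsc x y z := by
  unfold Gsc
  rw [sg_pair (a := a) (b := b) (y := lamP x y z) (z := lamM x y z)
    (by rw [h1, lamP_add_lamM]) (by rw [h2, lamP_mul_lamM hx hy hz])]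

/-- subadditivity together with monotonicity in the last two variables -/
theorem Gsc_sum_le {K : Type*} [Fintype K] (x y z : K → ℝ) (Y Z : ℝ)
    (hx : ∀ k, 0 ≤ x k) (hy : ∀ k, 0 ≤ y k) (hz : ∀ k, 0 ≤ z k)
    (hY : ∑ k, y k ≤ Y) (hZ : ∑ k, z k ≤ Z) :
    Gsc (∑ k, x k) Y Z ≤ ∑ k, Gsc (x k) (y k) (z k) := by
  have hY0 : 0 ≤ Y := le_trans (Finset.sum_nonneg fun k _ => hy k) hY
  have hZ0 : 0 ≤ Z := le_trans (Finset.sum_nonneg fun k _ => hz k) hZ
  have hX0 : 0 ≤ ∑ k, x k := Finset.sum_nonneg fun k _ => hx k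
  exact Gsc_subadd x y z (fun k => lamP (x k) (y k) (z k)) (fun k => lamM (x k) (y k) (z k)) Y Z
    (lamP (∑ k, x k) Y Z) (lamM (∑ k, x k) Y Z) hx hy hz
    (fun k => lamP_nonneg (hx k) (hy k) (hz k)) (fun k => lamM_nonneg (hx k) (hy k) (hz k))
    (lamP_nonneg hX0 hY0 hZ0) (lamM_nonneg hX0 hY0 hZ0)
    (fun k => lamP_add_lamM _ _ _) (fun k => lamP_mul_lamM (hx k) (hy k) (hz k)) hY hZ
    (lamP_add_lamM _ _ _) (lamP_mul_lamM hX0 hY0 hZ0)

/-- monotonicity in the last two variables -/
theorem Gsc_anti {x y z Y Z : ℝ} (hx : 0 ≤ x) (hy : 0 ≤ y) (hz : 0 ≤ z) (hY : y ≤ Y) (hZ : z ≤ Z) :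
    Gsc x Y Z ≤ Gsc x y z := by
  have := Gsc_sum_le (K := Unit) (fun _ => x) (fun _ => y) (fun _ => z) Y Z (fun _ => hx)
    (fun _ => hy) (fun _ => hz) (by simpa using hY) (by simpa using hZ)
  simpa using this

/-- homogeneity of degree one -/
theorem Gsc_smul {c x y z : ℝ} (hc : 0 ≤ c) (hx : 0 ≤ x) (hy : 0 ≤ y) (hz : 0 ≤ z) :
    Gsc (c * x) (c * y) (c * z) = c * Gsc x y z := by
  have h := Gsc_eq_of_roots (x := c * x) (y := c * y) (z := c * z) (a := c * lamP x y z)
    (b := c * lamM x y z) (mul_nonneg hc hx) (mul_nonneg hc hy) (mul_nonneg hc hz)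
    (by rw [← mul_add, lamP_add_lamM]; ring)
    (by
      have := lamP_mul_lamM hx hy hz
      calc c * lamP x y z * (c * lamM x y z) = c * c * (lamP x y z * lamM x y z) := by ring
        _ = c * y * (c * z) := by rw [this]; ring)
  rw [← h]
  unfold Gsc
  have hs := lamP_add_lamM x y z
  simp only [negMulLog_mul]
  have e : lamP x y z = x + y + z - lamM x y z := by linarith
  rw [e]
  ring

end Vale.Agent.P358
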