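import Vale.Agent.P358.AD.ChanOm
import Vale.Agent.P358.AD.ScalarG
import Vale.Agent.P358.AD.DetKey

/-!
The key entropy inequality (lemma L0 at `ν = 0`).
-/

namespace Vale.Agent.P358
open Matrix
open scoped ComplexOrder

variable {Y : Type*} [Fintype Y] [DecidableEq Y]

/-- output entropy (nats, unnormalised) of amplitude damping on the pure state with populations
`x` (ground) and `t` (excited). -/
noncomputable def outE (γ x t : ℝ) : ℝ :=
  Real.negMulLog (lamP x (γ * t) ((1 - γ) * t)) + Real.negMulLog (lamM x (γ * t) ((1 - γ) * t))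

theorem shift_lam_mul {x y z : ℝ} (hx : 0 ≤ x) (hy : 0 ≤ y) (hz : 0 ≤ z) (s : ℝ) :
    (s + lamP x y z) * (s + lamM x y z) = (s + z) * (s + y) + s * x := by
  have h1 := lamP_add_lamM x y z
  have h2 := lamP_mul_lamM hx hy hz
  calc (s + lamP x y z) * (s + lamM x y z)
      = s * s + s * (lamP x y z + lamM x y z) + lamP x y z * lamM x y z := by ring
    _ = (s + z) * (s + y) + s * x := by rw [h1, h2]; ring

/-- bookkeeping of the scalar terms. -/
theorem scal_book (γ t : ℝ) :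
    Real.negMulLog (γ * t) + Real.negMulLog ((1 - γ) * t) =
      Real.negMulLog t + (Real.negMulLog γ + Real.negMulLog (1 - γ)) * t := by
  rw [Real.negMulLog_mul, Real.negMulLog_mul]
  ring

/-- The entropy inequality when the upper left block is diagonal. -/
theorem L0_diag (γ : ℝ) (h0 : 0 ≤ γ) (h1 : γ ≤ 1) (p : Y → ℝ) (B Q : Matrix Y Y ℂ)
    (hw : (fromBlocks (diagonal (fun k => ((p k : ℝ) : ℂ))) B Bᴴ Q).PosSemidef) :
    ∑ k, Real.negMulLog (p k) + St Q + outE γ (∑ k, p k) Q.trace.re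
      - Real.negMulLog (∑ k, p k) - Real.negMulLog Q.trace.re ≤
      St (OmB γ (diagonal (fun k => ((p k : ℝ) : ℂ))) B Bᴴ Q) := by
  have hc : 0 ≤ 1 - γ := by linarith
  have hp : ∀ k, 0 ≤ p k := by
    intro k
    have := (Complex.le_def.1 (hw.diag_nonneg (i := Sum.inl k))).1
    simpa using this
  have hQ : Q.PosSemidef := posSemidef_block₂₂ _ _ _ _ hw
  obtain ⟨K, R, hR, hX, hQeq⟩ := _root_.P358.exists_gauge p B Q hw
  set y : Y → ℝ := fun k => γ * (Q k k).re with hy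
  set z : Y → ℝ := fun k => (1 - γ) * ((K * Kᴴ) k k).re with hz
  have hy0 : ∀ k, 0 ≤ y k := fun k =>
    mul_nonneg h0 (Complex.le_def.1 (hQ.diag_nonneg (i := k))).1
  have hz0 : ∀ k, 0 ≤ z k := fun k =>
    mul_nonneg hc (Complex.le_def.1 ((posSemidef_self_mul_conjTranspose K).diag_nonneg (i := k))).1
  have hysum : ∑ k, y k = γ * Q.trace.re := by
    simp only [hy, ← Finset.mul_sum]
    simp [Matrix.trace]
  have hzsum : ∑ k, z k ≤ (1 - γ) * Q.trace.re := by
    simp only [hz, ← Finset.mul_sum]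
    exact mul_le_mul_of_nonneg_left (_root_.P358.gauge_trace_le K R Q hR hQeq) hc
  have hcQ : ((((1 - γ : ℝ)) : ℂ) • Q).PosSemidef := hQ.smul (by exact_mod_cast hc)
  have hgQ : ((γ : ℂ) • Q).PosSemidef := hQ.smul (by exact_mod_cast h0)
  have hΩ := OmB_posSemidef γ h0 h1 hw
  have key := St_add_sum_le (ι := Y ⊕ Y) (κ := Y ⊕ Y)
    (fromBlocks (((1 - γ : ℝ) : ℂ) • Q) 0 0 ((γ : ℂ) • Q))
    (OmB γ (diagonal (fun k => ((p k : ℝ) : ℂ))) B Bᴴ Q)
    (posSemidef_fromBlocks_diag _ _ hcQ hgQ) hΩ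
    (Sum.elim (fun k => lamP (p k) (y k) (z k)) (fun k => lamM (p k) (y k) (z k)))
    (Sum.elim y z)
    (by rintro (k | k); exacts [lamP_nonneg (hp k) (hy0 k) (hz0 k), lamM_nonneg (hp k) (hy0 k) (hz0 k)])
    (by rintro (k | k); exacts [hy0 k, hz0 k])
    rfl
    (by
      simp only [Fintype.sum_sum_type, Sum.elim_inl, Sum.elim_inr]
      rw [← Finset.sum_add_distrib, OmB_trace, trace_fromBlocks']
      simp only [lamP_add_lamM, Finset.sum_add_distrib, Matrix.trace_smul, Matrix.trace_diagonal,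
        Complex.add_re, Complex.re_sum, Complex.ofReal_re, smul_eq_mul, Complex.re_ofReal_mul]
      ring)
    (by
      intro s hs
      simp only [Fintype.prod_sum_type, Sum.elim_inl, Sum.elim_inr]
      rw [smul_one_add_fromBlocks, det_fromBlocks_zero₁₂, ← Finset.prod_mul_distrib,
        ← Finset.prod_mul_distrib]
      have hk := _root_.P358.det_key p hp K R Q B hR hQeq hX γ (1 - γ) s h0 hc hs
      have e1 : ∀ k, (s + lamP (p k) (y k) (z k)) * (s + lamM (p k) (y k) (z k)) =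
          (s + (1 - γ) * ((K * Kᴴ) k k).re) * (s + γ * (Q k k).re) + s * p k := fun k =>
        shift_lam_mul (hp k) (hy0 k) (hz0 k) s
      have e2 : ∀ k, (s + y k) * (s + z k) =
          (s + (1 - γ) * ((K * Kᴴ) k k).re) * (s + γ * (Q k k).re) := fun k => by
        simp only [hy, hz]; ring
      simp only [e1, e2]
      have e3 : (((s : ℂ) • (1 : Matrix Y Y ℂ) + ((1 - γ : ℝ) : ℂ) • Q).det *
          ((s : ℂ) • (1 : Matrix Y Y ℂ) + (γ : ℂ) • Q).det).re =
          (((s : ℂ) • (1 : Matrix Y Y ℂ) + ((1 - γ : ℝ) : ℂ) • Q).det).re *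
          (((s : ℂ) • (1 : Matrix Y Y ℂ) + (γ : ℂ) • Q).det).re := by
        rw [det_shift _ hcQ.1, det_shift _ hgQ.1, ← Complex.ofReal_mul]
        simp only [Complex.ofReal_re]
      rw [e3]
      exact hk)
  rw [St_fromBlocks_diag _ _ hcQ hgQ, St_smul Q hQ (1 - γ) hc, St_smul Q hQ γ h0] at key
  simp only [Fintype.sum_sum_type, Sum.elim_inl, Sum.elim_inr] at key
  have hG := Gsc_sum_le p y z (γ * Q.trace.re) ((1 - γ) * Q.trace.re) hp hy0 hz0 hysum.le hzsum
  have hGs : ∑ k, Gsc (p k) (y k) (z k) =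
      ∑ k, Real.negMulLog (lamP (p k) (y k) (z k)) + ∑ k, Real.negMulLog (lamM (p k) (y k) (z k))
        - ∑ k, Real.negMulLog (p k) - ∑ k, Real.negMulLog (y k) - ∑ k, Real.negMulLog (z k) := by
    simp only [Gsc, Finset.sum_sub_distrib, Finset.sum_add_distrib]
  have hb := scal_book γ Q.trace.re
  rw [hGs] at hG
  unfold Gsc at hG
  unfold outE
  linarith

/-- **Lemma L0 at `ν = 0`** (unnormalised form). -/
theorem L0u (γ : ℝ) (h0 : 0 ≤ γ) (h1 : γ ≤ 1) (P B Q : Matrix Y Y ℂ)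
    (hw : (fromBlocks P B Bᴴ Q).PosSemidef) :
    St P + St Q + outE γ P.trace.re Q.trace.re - Real.negMulLog P.trace.re
      - Real.negMulLog Q.trace.re ≤ St (OmB γ P B Bᴴ Q) := by
  have hP : P.PosSemidef := posSemidef_block₁₁ _ _ _ _ hw
  have hQ : Q.PosSemidef := posSemidef_block₂₂ _ _ _ _ hw
  obtain ⟨U, hU1, hU2, hPeq⟩ := exists_spectral P hP.1
  set l := hP.1.eigenvalues with hl
  set V : Matrix (Y ⊕ Y) (Y ⊕ Y) ℂ := fromBlocks Uᴴ 0 0 Uᴴ with hV
  have hVV : V * Vᴴ = 1 := by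
    rw [hV, fromBlocks_conjTranspose, fromBlocks_multiply]
    simp [hU2]
  have hPd : Uᴴ * P * U = diagonal (fun k => ((l k : ℝ) : ℂ)) := by
    rw [hPeq, ← Matrix.mul_assoc, ← Matrix.mul_assoc, hU2, Matrix.one_mul, Matrix.mul_assoc, hU2,
      Matrix.mul_one]
  have hBH : Uᴴ * Bᴴ * U = (Uᴴ * B * U)ᴴ := by
    rw [conjTranspose_mul, conjTranspose_mul, conjTranspose_conjTranspose, Matrix.mul_assoc]
  have hw' : (fromBlocks (diagonal (fun k => ((l k : ℝ) : ℂ))) (Uᴴ * B * U) (Uᴴ * B * U)ᴴ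
      (Uᴴ * Q * U)).PosSemidef := by
    have h := hw.mul_mul_conjTranspose_same V
    rw [hV, fromBlocks_conjTranspose, fromBlocks_multiply, fromBlocks_multiply] at h
    simpa [hPd, hBH] using h
  have hΩ := OmB_posSemidef γ h0 h1 hw
  have hΩ' : V * OmB γ P B Bᴴ Q * Vᴴ =
      OmB γ (diagonal (fun k => ((l k : ℝ) : ℂ))) (Uᴴ * B * U) (Uᴴ * B * U)ᴴ (Uᴴ * Q * U) := by
    unfold OmB
    rw [hV, fromBlocks_conjTranspose, fromBlocks_multiply, fromBlocks_multiply, ← hPd, ← hBH]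
    simp [Matrix.mul_add, Matrix.add_mul]
  have hmain := L0_diag γ h0 h1 l (Uᴴ * B * U) (Uᴴ * Q * U) hw'
  rw [← hΩ', St_unitary_conj _ V hΩ hVV] at hmain
  have hStQ : St (Uᴴ * Q * U) = St Q := by
    have := St_unitary_conj Q Uᴴ hQ (by rw [conjTranspose_conjTranspose]; exact hU2)
    rwa [conjTranspose_conjTranspose] at this
  have htrQ : (Uᴴ * Q * U).trace = Q.trace := by
    rw [Matrix.trace_mul_comm, ← Matrix.mul_assoc, hU1, Matrix.one_mul]
  rw [hStQ, htrQ, ← trace_re_eq_sum P hP.1, ← St_of_herm P hP.1] at hmain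
  exact hmain

end Vale.Agent.P358
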