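import Vale.Agent.P358.AD.ChanOm
import Vale.Agent.P358.AD.ScalarG
import Vale.Agent.P358.AD.DetKey

/-!
The key entropy inequality (lemma L0 at `ν = 0`) when the upper left block is diagonal.
-/

namespace Vale.Agent.P358
open Matrix
open scoped ComplexOrder

variable {Y : Type*} [Fintype Y] [DecidableEq Y]

theorem L0u_diag (γ : ℝ) (h0 : 0 ≤ γ) (h1 : γ ≤ 1) (p : Y → ℝ) (B Q : Matrix Y Y ℂ)
    (hw : (fromBlocks (diagonal (fun k => ((p k : ℝ) : ℂ))) B Bᴴ Q).PosSemidef) :
    (∑ k, Real.negMulLog (p k)) + St Q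
      + (Real.negMulLog (lamP (∑ k, p k) (γ * Q.trace.re) ((1 - γ) * Q.trace.re))
        + Real.negMulLog (lamM (∑ k, p k) (γ * Q.trace.re) ((1 - γ) * Q.trace.re)))
      - Real.negMulLog (∑ k, p k) - Real.negMulLog Q.trace.re ≤
      St (OmB γ (diagonal (fun k => ((p k : ℝ) : ℂ))) B Bᴴ Q) := by
  obtain ⟨K, R, hR, hX, hQ⟩ := _root_.P358.exists_gauge p B Q hw
  set c := 1 - γ with hcdef
  have hc : 0 ≤ c := by simp only [hcdef]; linarith
  have hp : ∀ k, 0 ≤ p k := by
    intro k
    have := (Complex.le_def.1 (hw.diag_nonneg (i := Sum.inl k))).1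
    simpa using this
  have hQpsd : Q.PosSemidef := posSemidef_block₂₂ _ _ _ _ hw
  set t := Q.trace.re with ht
  set y : Y → ℝ := fun k => γ * (Q k k).re with hy
  set z : Y → ℝ := fun k => c * ((K * Kᴴ) k k).re with hz
  have hy0 : ∀ k, 0 ≤ y k := fun k =>
    mul_nonneg h0 (Complex.le_def.1 (hQpsd.diag_nonneg (i := k))).1
  have hz0 : ∀ k, 0 ≤ z k := fun k =>
    mul_nonneg hc (Complex.le_def.1 ((posSemidef_self_mul_conjTranspose K).diag_nonneg (i := k))).1
  have hysum : ∑ k, y k = γ * t := by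
    simp only [hy, ht, ← Finset.mul_sum]
    congr 1
    simp [Matrix.trace]
  have hzsum : ∑ k, z k ≤ c * t := by
    simp only [hz, ← Finset.mul_sum]
    exact mul_le_mul_of_nonneg_left (_root_.P358.gauge_trace_le K R Q hR hQ) hc
  have hΩ : (OmB γ (diagonal (fun k => ((p k : ℝ) : ℂ))) B Bᴴ Q).PosSemidef :=
    OmB_posSemidef γ h0 h1 hw
  have hcQ : ((c : ℂ) • Q).PosSemidef := hQpsd.smul (by exact_mod_cast hc)
  have hγQ : ((γ : ℂ) • Q).PosSemidef := hQpsd.smul (by exact_mod_cast h0)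
  have hmain := St_add_sum_le (ι := Y ⊕ Y) (κ := Y ⊕ Y)
    (fromBlocks ((c : ℂ) • Q) 0 0 ((γ : ℂ) • Q))
    (OmB γ (diagonal (fun k => ((p k : ℝ) : ℂ))) B Bᴴ Q)
    (posSemidef_fromBlocks_diag _ _ hcQ hγQ) hΩ
    (Sum.elim (fun k => lamP (p k) (y k) (z k)) (fun k => lamM (p k) (y k) (z k)))
    (Sum.elim z y)
    (by
      rintro (k | k)
      · exact lamP_nonneg (hp k) (hy0 k) (hz0 k)
      · exact lamM_nonneg (hp k) (hy0 k) (hz0 k))
    (by
      rintro (k | k)
      · exact hz0 k
      · exact hy0 k)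
    rfl
    (by
      simp only [Fintype.sum_sum_type, Sum.elim_inl, Sum.elim_inr, trace_fromBlocks', OmB_trace,
        Complex.add_re, Matrix.trace_smul, smul_eq_mul, Complex.re_ofReal_mul]
      rw [← Finset.sum_add_distrib]
      simp only [lamP_add_lamM]
      rw [Finset.sum_add_distrib, Finset.sum_add_distrib]
      have : (diagonal (fun k => ((p k : ℝ) : ℂ))).trace.re = ∑ k, p k := by
        simp [Matrix.trace]
      rw [this, ← ht]
      simp only [hcdef]
      ring)
    (by
      intro s hs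
      have hk := _root_.P358.det_key p hp K R Q B hR hQ hX γ c s h0 hc hs
      simp only [Fintype.prod_sum_type, Sum.elim_inl, Sum.elim_inr]
      rw [smul_one_add_fromBlocks, det_fromBlocks_zero₁₂, det_shift _ hcQ.1, det_shift _ hγQ.1,
        ← Complex.ofReal_mul, Complex.ofReal_re, ← det_shift_re _ hcQ.1, ← det_shift_re _ hγQ.1,
        ← Finset.prod_mul_distrib, ← Finset.prod_mul_distrib]
      have e1 : ∀ k, (s + lamP (p k) (y k) (z k)) * (s + lamM (p k) (y k) (z k)) =
          (s + z k) * (s + y k) + s * p k := by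
        intro k
        have a1 := lamP_add_lamM (p k) (y k) (z k)
        have a2 := lamP_mul_lamM (hp k) (hy0 k) (hz0 k)
        calc (s + lamP (p k) (y k) (z k)) * (s + lamM (p k) (y k) (z k))
            = s ^ 2 + s * (lamP (p k) (y k) (z k) + lamM (p k) (y k) (z k))
              + lamP (p k) (y k) (z k) * lamM (p k) (y k) (z k) := by ring
          _ = (s + z k) * (s + y k) + s * p k := by rw [a1, a2]; ring
      simp only [e1]
      exact hk)
  simp only [Fintype.sum_sum_type, Sum.elim_inl, Sum.elim_inr] at hmain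
  rw [St_fromBlocks_diag _ _ hcQ hγQ, St_smul Q hQpsd c hc, St_smul Q hQpsd γ h0, ← ht] at hmain
  have hG := Gsc_sum_le p y z (γ * t) (c * t) hp hy0 hz0 hysum.le hzsum
  have hGk : ∑ k, Gsc (p k) (y k) (z k) =
      (∑ k, Real.negMulLog (lamP (p k) (y k) (z k))) + (∑ k, Real.negMulLog (lamM (p k) (y k) (z k)))
        - (∑ k, Real.negMulLog (p k)) - (∑ k, Real.negMulLog (y k))
        - ∑ k, Real.negMulLog (z k) := by
    simp only [Gsc, Finset.sum_sub_distrib, Finset.sum_add_distrib]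
  rw [hGk] at hG
  unfold Gsc at hG
  rw [Real.negMulLog_mul γ t, Real.negMulLog_mul c t] at hG
  have hcγ : c + γ = 1 := by simp only [hcdef]; ring
  have e2 : c * St Q + γ * St Q = St Q := by rw [← add_mul, hcγ, one_mul]
  have e3 : γ * Real.negMulLog t + c * Real.negMulLog t = Real.negMulLog t := by
    rw [← add_mul, add_comm γ c, hcγ, one_mul]
  linarith

end Vale.Agent.P358
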