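import Vale.Agent.P358.Defs
import Vale.Agent.P358.Spectral
import Vale.Agent.P358.EtaLemma

/-!
Entropy by determinants: the unnormalised entropy `St A = ∑ negMulLog (eigenvalues)` of a positive
semidefinite matrix is controlled by the numbers `det (s + A)`, `s > 0`.
-/

namespace Vale.Agent.P358
open Matrix
open scoped ComplexOrder

variable {X Y : Type*} [Fintype X] [DecidableEq X] [Fintype Y] [DecidableEq Y]

/-- Unnormalised von Neumann entropy in nats. -/
noncomputable def St (A : Matrix X X ℂ) : ℝ :=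
  if h : A.IsHermitian then ∑ k, Real.negMulLog (h.eigenvalues k) else 0

theorem vnEntropy_eq_St (A : Matrix X X ℂ) : vnEntropy A = St A / Real.log 2 := by
  unfold vnEntropy St
  split_ifs <;> simp

theorem St_of_herm (A : Matrix X X ℂ) (h : A.IsHermitian) :
    St A = ∑ k, Real.negMulLog (h.eigenvalues k) := by
  unfold St
  rw [dif_pos h]

theorem det_shift (A : Matrix X X ℂ) (hA : A.IsHermitian) (s : ℝ) :
    ((s : ℂ) • (1 : Matrix X X ℂ) + A).det = ((∏ k, (s + hA.eigenvalues k) : ℝ) : ℂ) := by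
  have h1 := Matrix.eval_charpoly A (-(s : ℂ))
  rw [hA.charpoly_eq, Polynomial.eval_prod] at h1
  simp only [Polynomial.eval_sub, Polynomial.eval_X, Polynomial.eval_C] at h1
  have h2 : (Matrix.scalar X (-(s : ℂ)) - A) = -((s : ℂ) • (1 : Matrix X X ℂ) + A) := by
    ext i j
    simp [Matrix.scalar_apply, Matrix.diagonal_apply, Matrix.one_apply]
    split_ifs <;> ring
  rw [h2, Matrix.det_neg] at h1
  have h3 : ∏ k, (-(s : ℂ) - ((hA.eigenvalues k : ℝ) : ℂ)) =
      (-1) ^ Fintype.card X * ∏ k, ((s : ℂ) + ((hA.eigenvalues k : ℝ) : ℂ)) := by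
    rw [← Finset.card_univ, ← Finset.prod_const, ← Finset.prod_mul_distrib]
    refine Finset.prod_congr rfl fun k _ => ?_
    ring
  have h1' : ∏ k, (-(s : ℂ) - ((hA.eigenvalues k : ℝ) : ℂ)) =
      (-1) ^ Fintype.card X * ((s : ℂ) • (1 : Matrix X X ℂ) + A).det := by
    simpa using h1
  rw [h3] at h1'
  have hne : ((-1 : ℂ)) ^ Fintype.card X ≠ 0 := pow_ne_zero _ (by norm_num)
  have := mul_left_cancel₀ hne h1'
  rw [← this]
  push_cast
  rfl

theorem det_shift_re (A : Matrix X X ℂ) (hA : A.IsHermitian) (s : ℝ) :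
    (((s : ℂ) • (1 : Matrix X X ℂ) + A).det).re = ∏ k, (s + hA.eigenvalues k) := by
  rw [det_shift A hA s, Complex.ofReal_re]

theorem trace_re_eq_sum (A : Matrix X X ℂ) (hA : A.IsHermitian) :
    A.trace.re = ∑ k, hA.eigenvalues k := by
  rw [hA.trace_eq_sum_eigenvalues]
  simp

/-- General comparison: a matrix together with a family of numbers on each side. -/
theorem St_add_sum_le {ι κ : Type*} [Fintype ι] [Fintype κ]
    (A : Matrix X X ℂ) (B : Matrix Y Y ℂ) (hA : A.PosSemidef) (hB : B.PosSemidef)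
    (u : ι → ℝ) (v : κ → ℝ) (hu : ∀ i, 0 ≤ u i) (hv : ∀ j, 0 ≤ v j)
    (hcard : Fintype.card X + Fintype.card ι = Fintype.card Y + Fintype.card κ)
    (htr : A.trace.re + ∑ i, u i = B.trace.re + ∑ j, v j)
    (hdet : ∀ s : ℝ, 0 < s →
      (((s : ℂ) • (1 : Matrix X X ℂ) + A).det).re * ∏ i, (s + u i) ≤
        (((s : ℂ) • (1 : Matrix Y Y ℂ) + B).det).re * ∏ j, (s + v j)) :
    St A + ∑ i, Real.negMulLog (u i) ≤ St B + ∑ j, Real.negMulLog (v j) := by
  rw [St_of_herm A hA.1, St_of_herm B hB.1]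
  have h := eta_sum_le_of_prod (ι := Y ⊕ κ) (κ := X ⊕ ι)
    (Sum.elim hB.1.eigenvalues v) (Sum.elim hA.1.eigenvalues u)
    (by rintro (i | i); exacts [hB.eigenvalues_nonneg i, hv i])
    (by rintro (i | i); exacts [hA.eigenvalues_nonneg i, hu i])
    (by simp only [Fintype.card_sum]; exact hcard.symm)
    (by
      simp only [Fintype.sum_sum_type, Sum.elim_inl, Sum.elim_inr]
      rw [← trace_re_eq_sum, ← trace_re_eq_sum]; exact htr.symm)
    (by
      intro s hs
      simp only [Fintype.prod_sum_type, Sum.elim_inl, Sum.elim_inr]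
      rw [← det_shift_re, ← det_shift_re]; exact hdet s hs)
  simpa only [Fintype.sum_sum_type, Sum.elim_inl, Sum.elim_inr] using h

theorem St_le_of_det (A : Matrix X X ℂ) (B : Matrix Y Y ℂ) (hA : A.PosSemidef) (hB : B.PosSemidef)
    (hcard : Fintype.card X = Fintype.card Y) (htr : A.trace.re = B.trace.re)
    (hdet : ∀ s : ℝ, 0 < s →
      (((s : ℂ) • (1 : Matrix X X ℂ) + A).det).re ≤ (((s : ℂ) • (1 : Matrix Y Y ℂ) + B).det).re) :
    St A ≤ St B := by
  have h := St_add_sum_le (ι := Empty) (κ := Empty) A B hA hB (fun _ => 0) (fun _ => 0)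
    (fun _ => le_rfl) (fun _ => le_rfl) (by simpa using hcard) (by simpa using htr)
    (by intro s hs; simpa using hdet s hs)
  simpa using h

theorem St_eq_of_det (A : Matrix X X ℂ) (B : Matrix Y Y ℂ) (hA : A.PosSemidef) (hB : B.PosSemidef)
    (hcard : Fintype.card X = Fintype.card Y) (htr : A.trace.re = B.trace.re)
    (hdet : ∀ s : ℝ, 0 < s →
      (((s : ℂ) • (1 : Matrix X X ℂ) + A).det).re = (((s : ℂ) • (1 : Matrix Y Y ℂ) + B).det).re) :
    St A = St B :=
  le_antisymm (St_le_of_det A B hA hB hcard htr fun s hs => (hdet s hs).le)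
    (St_le_of_det B A hB hA hcard.symm htr.symm fun s hs => (hdet s hs).ge)

theorem St_eq_sum_of_det {κ : Type*} [Fintype κ] (A : Matrix X X ℂ) (hA : A.PosSemidef)
    (v : κ → ℝ) (hv : ∀ j, 0 ≤ v j) (hcard : Fintype.card X = Fintype.card κ)
    (htr : A.trace.re = ∑ j, v j)
    (hdet : ∀ s : ℝ, 0 < s → (((s : ℂ) • (1 : Matrix X X ℂ) + A).det).re = ∏ j, (s + v j)) :
    St A = ∑ j, Real.negMulLog (v j) := by
  rw [St_of_herm A hA.1]
  apply le_antisymm
  · exact eta_sum_le_of_prod v hA.1.eigenvalues hv hA.eigenvalues_nonneg hcard.symm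
      (by rw [← trace_re_eq_sum, htr]) (fun s hs => by rw [← det_shift_re, hdet s hs])
  · exact eta_sum_le_of_prod hA.1.eigenvalues v hA.eigenvalues_nonneg hv hcard
      (by rw [← trace_re_eq_sum, htr]) (fun s hs => by rw [← det_shift_re, hdet s hs])

theorem St_diagonal (d : X → ℝ) (hd : ∀ i, 0 ≤ d i) :
    St (diagonal fun i => ((d i : ℝ) : ℂ)) = ∑ i, Real.negMulLog (d i) := by
  refine St_eq_sum_of_det _ ?_ d hd rfl ?_ ?_
  · exact Matrix.PosSemidef.diagonal (fun i => by
      show (0 : ℂ) ≤ ((d i : ℝ) : ℂ)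
      exact_mod_cast hd i)
  · simp [Matrix.trace_diagonal]
  · intro s _
    have : (s : ℂ) • (1 : Matrix X X ℂ) + diagonal (fun i => ((d i : ℝ) : ℂ)) =
        diagonal fun i => (((s + d i : ℝ)) : ℂ) := by
      ext i j
      by_cases h : i = j
      · subst h; simp
      · simp [h]
    rw [this, Matrix.det_diagonal, ← Complex.ofReal_prod, Complex.ofReal_re]

omit [Fintype X] [Fintype Y] in
theorem smul_one_add_fromBlocks (s : ℂ) (A : Matrix X X ℂ) (B : Matrix X Y ℂ) (C : Matrix Y X ℂ)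
    (D : Matrix Y Y ℂ) :
    s • (1 : Matrix (X ⊕ Y) (X ⊕ Y) ℂ) + fromBlocks A B C D =
      fromBlocks (s • (1 : Matrix X X ℂ) + A) B C (s • (1 : Matrix Y Y ℂ) + D) := by
  rw [← fromBlocks_one, fromBlocks_smul, fromBlocks_add]
  simp

/-- Every positive semidefinite matrix is of the form `Bᴴ * B`. -/
theorem exists_factor (A : Matrix X X ℂ) (hA : A.PosSemidef) : ∃ B : Matrix X X ℂ, A = Bᴴ * B := by
  obtain ⟨U, _, _, hAeq⟩ := exists_spectral A hA.1
  refine ⟨diagonal (fun k => ((Real.sqrt (hA.1.eigenvalues k) : ℝ) : ℂ)) * Uᴴ, ?_⟩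
  rw [conjTranspose_mul, conjTranspose_conjTranspose, diagonal_conjTranspose, Matrix.mul_assoc,
    ← Matrix.mul_assoc (diagonal _) (diagonal _), diagonal_mul_diagonal, ← Matrix.mul_assoc]
  conv_lhs => rw [hAeq]
  congr 2
  ext i j
  by_cases h : i = j
  · subst h
    simp only [diagonal_apply_eq, Pi.star_apply, RCLike.star_def, Complex.conj_ofReal]
    rw [← Complex.ofReal_mul, Real.mul_self_sqrt (hA.eigenvalues_nonneg i)]
  · simp [h]

omit [DecidableEq X] [DecidableEq Y] in
theorem trace_fromBlocks' (A : Matrix X X ℂ) (B : Matrix X Y ℂ) (C : Matrix Y X ℂ)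
    (D : Matrix Y Y ℂ) : (fromBlocks A B C D).trace = A.trace + D.trace := by
  simp [Matrix.trace, Fintype.sum_sum_type]

theorem posSemidef_fromBlocks_diag (A : Matrix X X ℂ) (B : Matrix Y Y ℂ) (hA : A.PosSemidef)
    (hB : B.PosSemidef) : (fromBlocks A 0 0 B).PosSemidef := by
  obtain ⟨C, rfl⟩ := exists_factor A hA
  obtain ⟨D, rfl⟩ := exists_factor B hB
  have : fromBlocks (Cᴴ * C) 0 0 (Dᴴ * D) = (fromBlocks C 0 0 D)ᴴ * fromBlocks C 0 0 D := by
    rw [fromBlocks_conjTranspose, fromBlocks_multiply]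
    simp
  rw [this]
  exact Matrix.posSemidef_conjTranspose_mul_self _

theorem St_fromBlocks_diag (A : Matrix X X ℂ) (B : Matrix Y Y ℂ) (hA : A.PosSemidef)
    (hB : B.PosSemidef) : St (fromBlocks A 0 0 B) = St A + St B := by
  rw [St_of_herm A hA.1, St_of_herm B hB.1]
  have h := St_eq_sum_of_det (κ := X ⊕ Y) (fromBlocks A 0 0 B) (posSemidef_fromBlocks_diag A B hA hB)
    (Sum.elim hA.1.eigenvalues hB.1.eigenvalues)
    (by rintro (i | i); exacts [hA.eigenvalues_nonneg i, hB.eigenvalues_nonneg i]) rfl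
    (by
      simp only [Fintype.sum_sum_type, Sum.elim_inl, Sum.elim_inr, trace_fromBlocks',
        Complex.add_re]
      rw [← trace_re_eq_sum, ← trace_re_eq_sum])
    (by
      intro s _
      simp only [Fintype.prod_sum_type, Sum.elim_inl, Sum.elim_inr]
      rw [smul_one_add_fromBlocks, det_fromBlocks_zero₁₂, det_shift A hA.1, det_shift B hB.1,
        ← Complex.ofReal_mul, Complex.ofReal_re])
  simpa only [Fintype.sum_sum_type, Sum.elim_inl, Sum.elim_inr] using h

theorem St_unitary_conj (A U : Matrix X X ℂ) (hA : A.PosSemidef) (hU : U * Uᴴ = 1) :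
    St (U * A * Uᴴ) = St A := by
  have hU' : Uᴴ * U = 1 := mul_eq_one_comm.1 hU
  refine St_eq_of_det _ _ (hA.mul_mul_conjTranspose_same U) hA rfl ?_ ?_
  · rw [Matrix.trace_mul_comm, ← Matrix.mul_assoc, hU', Matrix.one_mul]
  · intro s _
    have : (s : ℂ) • (1 : Matrix X X ℂ) + U * A * Uᴴ = U * ((s : ℂ) • (1 : Matrix X X ℂ) + A) * Uᴴ := by
      rw [Matrix.mul_add, Matrix.add_mul, Matrix.mul_smul, Matrix.mul_one, Matrix.smul_mul, hU]
    rw [this, det_mul, det_mul, mul_right_comm, ← det_mul, hU, det_one, one_mul]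

theorem St_submatrix_equiv (A : Matrix X X ℂ) (hA : A.PosSemidef) (e : Y ≃ X) :
    St (A.submatrix e e) = St A := by
  refine St_eq_of_det _ _ (hA.submatrix e) hA (Fintype.card_congr e) ?_ ?_
  · simp only [Matrix.trace, Matrix.diag, Matrix.submatrix_apply]
    rw [Equiv.sum_comp e (fun i => A i i)]
  · intro s _
    have : (s : ℂ) • (1 : Matrix Y Y ℂ) + A.submatrix e e =
        ((s : ℂ) • (1 : Matrix X X ℂ) + A).submatrix e e := by
      ext i j
      simp [Matrix.one_apply, e.injective.eq_iff]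
    rw [this, det_submatrix_equiv_self]

theorem St_smul (A : Matrix X X ℂ) (hA : A.PosSemidef) (c : ℝ) (hc : 0 ≤ c) :
    St ((c : ℂ) • A) = c * St A + Real.negMulLog c * A.trace.re := by
  have hcA : ((c : ℂ) • A).PosSemidef := hA.smul (by exact_mod_cast hc)
  have h := St_eq_sum_of_det ((c : ℂ) • A) hcA (fun k => c * hA.1.eigenvalues k)
    (fun k => mul_nonneg hc (hA.eigenvalues_nonneg k)) rfl
    (by
      rw [Matrix.trace_smul, ← Finset.mul_sum, ← trace_re_eq_sum]
      simp)
    (by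
      intro s hs
      rcases hc.eq_or_lt with rfl | hc'
      · simp [-Complex.ofReal_pow]
      · have e1 : (s : ℂ) • (1 : Matrix X X ℂ) + (c : ℂ) • A =
            (c : ℂ) • ((((s / c : ℝ)) : ℂ) • (1 : Matrix X X ℂ) + A) := by
          rw [smul_add, smul_smul]
          congr 2
          push_cast
          field_simp
        rw [e1, det_smul, det_shift A hA.1, ← Complex.ofReal_pow, ← Complex.ofReal_mul,
          Complex.ofReal_re, ← Finset.card_univ, ← Finset.prod_const, ← Finset.prod_mul_distrib]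
        refine Finset.prod_congr rfl fun k _ => ?_
        field_simp)
  rw [h, St_of_herm A hA.1, trace_re_eq_sum A hA.1, Finset.mul_sum, Finset.mul_sum,
    ← Finset.sum_add_distrib]
  refine Finset.sum_congr rfl fun k _ => ?_
  rw [Real.negMulLog_mul]
  ring

end Vale.Agent.P358
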