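import Vale.Agent.P358.AD.Bdd2
import Vale.Agent.P358.AD.ChanInst
import Vale.Agent.P358.AD.ChanOm
import Vale.Agent.P358.AD.FinalSucc

/-!
The easy direction: the Holevo capacity of the tensor powers of the amplitude damping channel is
superadditive (product ensembles).
-/

namespace Vale.Agent.P358
open Matrix
open scoped ComplexOrder

variable {X Y : Type*} [Fintype X] [DecidableEq X] [Fintype Y] [DecidableEq Y]

/-- The tensor product `S ⊗ R` of a `2 × 2` matrix with a matrix, in block form. -/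
def kr2 (S : Matrix (Fin 2) (Fin 2) ℂ) (R : Matrix Y Y ℂ) : Matrix (Y ⊕ Y) (Y ⊕ Y) ℂ :=
  fromBlocks (S 0 0 • R) (S 0 1 • R) (S 1 0 • R) (S 1 1 • R)

omit [DecidableEq Y] in
theorem kr2_mul (S S' : Matrix (Fin 2) (Fin 2) ℂ) (R R' : Matrix Y Y ℂ) :
    kr2 S R * kr2 S' R' = kr2 (S * S') (R * R') := by
  unfold kr2
  rw [fromBlocks_multiply]
  simp only [Matrix.mul_apply, Fin.sum_univ_two, Matrix.smul_mul, Matrix.mul_smul, smul_smul,
    add_smul, mul_comm]

omit [Fintype Y] [DecidableEq Y] in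
theorem kr2_conjTranspose (S : Matrix (Fin 2) (Fin 2) ℂ) (R : Matrix Y Y ℂ) :
    (kr2 S R)ᴴ = kr2 Sᴴ Rᴴ := by
  unfold kr2
  rw [fromBlocks_conjTranspose]
  simp only [conjTranspose_smul, conjTranspose_apply]

omit [Fintype Y] in
theorem kr2_one : kr2 (1 : Matrix (Fin 2) (Fin 2) ℂ) (1 : Matrix Y Y ℂ) = 1 := by
  unfold kr2
  simp [fromBlocks_one]

theorem kr2_posSemidef (S : Matrix (Fin 2) (Fin 2) ℂ) (R : Matrix Y Y ℂ) (hS : S.PosSemidef)
    (hR : R.PosSemidef) : (kr2 S R).PosSemidef := by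
  obtain ⟨A, rfl⟩ := exists_factor S hS
  obtain ⟨B, rfl⟩ := exists_factor R hR
  rw [← kr2_mul, ← kr2_conjTranspose]
  exact Matrix.posSemidef_conjTranspose_mul_self _

omit [DecidableEq Y] in
theorem kr2_trace (S : Matrix (Fin 2) (Fin 2) ℂ) (R : Matrix Y Y ℂ) :
    (kr2 S R).trace = S.trace * R.trace := by
  unfold kr2
  rw [trace_fromBlocks', trace_smul, trace_smul, Matrix.trace_fin_two]
  simp only [smul_eq_mul]
  ring

theorem kr2_isState (S : Matrix (Fin 2) (Fin 2) ℂ) (R : Matrix Y Y ℂ) (hS : IsState S)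
    (hR : IsState R) : IsState (kr2 S R) :=
  ⟨kr2_posSemidef S R hS.1 hR.1, by rw [kr2_trace, hS.2, hR.2, one_mul]⟩

/-- Entropy of a tensor product. -/
theorem St_kr2 (S : Matrix (Fin 2) (Fin 2) ℂ) (R : Matrix Y Y ℂ) (hS : S.PosSemidef)
    (hR : R.PosSemidef) : St (kr2 S R) = S.trace.re * St R + R.trace.re * St S := by
  obtain ⟨U, hU1, _, hSeq⟩ := exists_spectral S hS.1
  have ha0 : ∀ k, 0 ≤ hS.1.eigenvalues k := hS.eigenvalues_nonneg
  have hD : kr2 (diagonal fun k => ((hS.1.eigenvalues k : ℝ) : ℂ)) R =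
      fromBlocks (((hS.1.eigenvalues 0 : ℝ) : ℂ) • R) 0 0 (((hS.1.eigenvalues 1 : ℝ) : ℂ) • R) := by
    unfold kr2
    simp
  have hW : kr2 U (1 : Matrix Y Y ℂ) * (kr2 U (1 : Matrix Y Y ℂ))ᴴ = 1 := by
    rw [kr2_conjTranspose, kr2_mul, hU1, conjTranspose_one, Matrix.one_mul, kr2_one]
  have hdec : kr2 S R = kr2 U 1 * kr2 (diagonal fun k => ((hS.1.eigenvalues k : ℝ) : ℂ)) R *
      (kr2 U 1)ᴴ := by
    rw [kr2_conjTranspose, kr2_mul, kr2_mul, ← hSeq, conjTranspose_one, Matrix.one_mul,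
      Matrix.mul_one]
  have hP0 : (((hS.1.eigenvalues 0 : ℝ) : ℂ) • R).PosSemidef :=
    hR.smul (by exact_mod_cast ha0 0)
  have hP1 : (((hS.1.eigenvalues 1 : ℝ) : ℂ) • R).PosSemidef :=
    hR.smul (by exact_mod_cast ha0 1)
  rw [hdec, St_unitary_conj _ _ (by rw [hD]; exact posSemidef_fromBlocks_diag _ _ hP0 hP1) hW, hD,
    St_fromBlocks_diag _ _ hP0 hP1, St_smul R hR _ (ha0 0), St_smul R hR _ (ha0 1),
    trace_re_eq_sum S hS.1, St_of_herm S hS.1, Fin.sum_univ_two, Fin.sum_univ_two]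
  ring

/-- The block map `NM` acts on tensor products factorwise. -/
theorem NM_kr2 (γ : ℝ) {M : Matrix X X ℂ → Matrix Y Y ℂ} (hM : GoodMap M)
    (s : Matrix (Fin 2) (Fin 2) ℂ) (t : Matrix X X ℂ) :
    NM γ M (kr2 s t) = kr2 (gadc γ 0 s) (M t) := by
  unfold NM kr2 OmB
  rw [toBlocks_fromBlocks₁₁, toBlocks_fromBlocks₁₂, toBlocks_fromBlocks₂₁, toBlocks_fromBlocks₂₂]
  simp only [hM.map_smul, gadc]
  congr 1 <;> simp [smul_smul, add_smul]

omit [Fintype Y] [DecidableEq Y] in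
theorem kr2_sum_sum {k l : ℕ} (q : Fin k → ℝ) (p : Fin l → ℝ)
    (S : Fin k → Matrix (Fin 2) (Fin 2) ℂ) (R : Fin l → Matrix Y Y ℂ) :
    ∑ ab : Fin k × Fin l, ((q ab.1 * p ab.2 : ℝ) : ℂ) • kr2 (S ab.1) (R ab.2) =
      kr2 (∑ a, (q a : ℂ) • S a) (∑ b, (p b : ℂ) • R b) := by
  rw [Fintype.sum_prod_type]
  ext (i | i) (j | j) <;>
    simp only [kr2, Matrix.sum_apply, Matrix.smul_apply, fromBlocks_apply₁₁, fromBlocks_apply₁₂,
      fromBlocks_apply₂₁, fromBlocks_apply₂₂, smul_eq_mul, Finset.sum_mul_sum] <;>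
    refine Finset.sum_congr rfl fun a _ => Finset.sum_congr rfl fun b _ => ?_ <;>
    push_cast <;> ring

/-- Holevo quantity in nats. -/
theorem holevoQuantity_mul_log {X : Type*} (Φ : Matrix X X ℂ → Matrix Y Y ℂ) {k : ℕ}
    (q : Fin k → ℝ) (ρ : Fin k → Matrix X X ℂ) :
    holevoQuantity Φ q ρ * Real.log 2 =
      St (∑ a, (q a : ℂ) • Φ (ρ a)) - ∑ a, q a * St (Φ (ρ a)) := by
  have hl := log_two_pos'.ne'
  unfold holevoQuantity
  simp only [vnEntropy_eq_St]
  rw [sub_mul, Finset.sum_mul, div_mul_cancel₀ _ hl]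
  congr 1
  refine Finset.sum_congr rfl fun a _ => ?_
  rw [mul_assoc, div_mul_cancel₀ _ hl]

/-- Product ensembles: the Holevo quantities of two ensembles add up to a Holevo quantity of the
product channel. -/
theorem holevoQuantity_add_le (γ : ℝ) (h0 : 0 ≤ γ) (h1 : γ ≤ 1)
    {M : Matrix X X ℂ → Matrix Y Y ℂ} (hM : GoodMap M) {k l : ℕ}
    (q : Fin k → ℝ) (s : Fin k → Matrix (Fin 2) (Fin 2) ℂ) (p : Fin l → ℝ)
    (t : Fin l → Matrix X X ℂ) (hE1 : IsEnsemble q s) (hE2 : IsEnsemble p t) :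
    holevoQuantity (gadc γ 0) q s + holevoQuantity M p t ≤ holevoCapacity (NM γ M) := by
  obtain ⟨hq, hq1, hs⟩ := hE1
  obtain ⟨hp, hp1, ht⟩ := hE2
  have hN := goodMap_gadc γ h0 h1
  have hl := log_two_pos'
  have hsum1 : ∑ ab : Fin k × Fin l, q ab.1 * p ab.2 = 1 := by
    rw [Fintype.sum_prod_type, ← Finset.sum_mul_sum, hq1, hp1, one_mul]
  have h := holevoQ_le_capacity (NM γ M) (fun σ hσ => NM_isState γ h0 h1 hM hσ)
    (fun ab : Fin k × Fin l => q ab.1 * p ab.2) (fun ab => kr2 (s ab.1) (t ab.2))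
    (fun ab => mul_nonneg (hq _) (hp _)) hsum1 (fun ab => kr2_isState _ _ (hs _) (ht _))
  unfold holevoQ at h
  simp only [NM_kr2 γ hM] at h
  rw [kr2_sum_sum q p (fun a => gadc γ 0 (s a)) (fun b => M (t b))] at h
  have hσ : IsState (∑ a, (q a : ℂ) • gadc γ 0 (s a)) :=
    mixture_isState q _ hq hq1 fun a => hN.isState (hs a)
  have hτ : IsState (∑ b, (p b : ℂ) • M (t b)) :=
    mixture_isState p _ hp hp1 fun b => hM.isState (ht b)
  simp only [vnEntropy_eq_St] at h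
  rw [St_kr2 _ _ hσ.1 hτ.1, hσ.2, hτ.2] at h
  have hterm : ∀ ab : Fin k × Fin l,
      q ab.1 * p ab.2 * (St (kr2 (gadc γ 0 (s ab.1)) (M (t ab.2))) / Real.log 2) =
        (q ab.1 * (p ab.2 * St (M (t ab.2))) + (q ab.1 * St (gadc γ 0 (s ab.1))) * p ab.2) /
          Real.log 2 := by
    intro ab
    rw [St_kr2 _ _ (hN.isState (hs ab.1)).1 (hM.isState (ht ab.2)).1, (hN.isState (hs ab.1)).2,
      (hM.isState (ht ab.2)).2]
    simp only [Complex.one_re]
    ring
  simp only [hterm] at h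
  have hA : ∑ ab : Fin k × Fin l, q ab.1 * (p ab.2 * St (M (t ab.2))) =
      ∑ b, p b * St (M (t b)) := by
    rw [Fintype.sum_prod_type]
    simp only []
    rw [← Finset.sum_mul_sum, hq1, one_mul]
  have hB : ∑ ab : Fin k × Fin l, (q ab.1 * St (gadc γ 0 (s ab.1))) * p ab.2 =
      ∑ a, q a * St (gadc γ 0 (s a)) := by
    rw [Fintype.sum_prod_type]
    simp only []
    rw [← Finset.sum_mul_sum, hp1, mul_one]
  rw [← Finset.sum_div, Finset.sum_add_distrib, hA, hB, ← sub_div, div_le_iff₀ hl] at h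
  have e1 := holevoQuantity_mul_log (gadc γ 0) q s
  have e2 := holevoQuantity_mul_log M p t
  simp only [Complex.one_re] at h
  have h3 : (holevoQuantity (gadc γ 0) q s + holevoQuantity M p t) * Real.log 2 ≤
      holevoCapacity (NM γ M) * Real.log 2 := by
    rw [add_mul, e1, e2]
    linarith
  exact le_of_mul_le_mul_right h3 hl

theorem exists_isState [Nonempty X] : ∃ σ : Matrix X X ℂ, IsState σ := by
  obtain ⟨x⟩ := ‹Nonempty X›
  refine ⟨diagonal (Pi.single x 1), ?_, ?_⟩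
  · refine Matrix.PosSemidef.diagonal (fun i => ?_)
    by_cases h : i = x
    · subst h; simp
    · simp [h]
  · simp [Matrix.trace_diagonal]

theorem holevoQuantity_one_point {X : Type*} (Φ : Matrix X X ℂ → Matrix Y Y ℂ)
    (σ : Matrix X X ℂ) : holevoQuantity Φ (fun _ : Fin 1 => (1 : ℝ)) (fun _ => σ) = 0 := by
  simp [holevoQuantity]

omit [DecidableEq X] in
theorem isEnsemble_one_point (σ : Matrix X X ℂ) (hσ : IsState σ) :
    IsEnsemble (fun _ : Fin 1 => (1 : ℝ)) (fun _ => σ) :=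
  ⟨fun _ => zero_le_one, by simp, fun _ => hσ⟩

/-- Superadditivity of the Holevo capacity for `(amplitude damping) ⊗ M`. -/
theorem holevoCapacity_add_le_NM (γ : ℝ) (h0 : 0 ≤ γ) (h1 : γ ≤ 1) [Nonempty X]
    {M : Matrix X X ℂ → Matrix Y Y ℂ} (hM : GoodMap M) :
    holevoCapacity (gadc γ 0) + holevoCapacity M ≤ holevoCapacity (NM γ M) := by
  obtain ⟨σ2, hσ2⟩ := exists_isState (X := Fin 2)
  obtain ⟨σX, hσX⟩ := exists_isState (X := X)
  have stepA : ∀ (l : ℕ) (p : Fin l → ℝ) (t : Fin l → Matrix X X ℂ), IsEnsemble p t →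
      holevoCapacity (gadc γ 0) ≤ holevoCapacity (NM γ M) - holevoQuantity M p t := by
    intro l p t hE2
    refine holevoCapacity_le_of_forall _ _ ?_ ?_
    · have h := holevoQuantity_add_le γ h0 h1 hM _ _ p t (isEnsemble_one_point σ2 hσ2) hE2
      rw [holevoQuantity_one_point] at h
      linarith
    · intro k q s hE1
      have h := holevoQuantity_add_le γ h0 h1 hM q s p t hE1 hE2
      linarith
  have stepB : holevoCapacity M ≤ holevoCapacity (NM γ M) - holevoCapacity (gadc γ 0) := by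
    refine holevoCapacity_le_of_forall _ _ ?_ ?_
    · have h := stepA 1 _ _ (isEnsemble_one_point σX hσX)
      rw [holevoQuantity_one_point] at h
      linarith
    · intro l p t hE2
      have h := stepA l p t hE2
      linarith
  linarith

/-- The block form of the `(n+1)`-st tensor power has at most its Holevo capacity. -/
theorem holevoCapacity_NM_le_succ (γ : ℝ) (h0 : 0 ≤ γ) (h1 : γ ≤ 1) (n : ℕ) :
    holevoCapacity (NM γ (tensorPow (gadc γ 0) n)) ≤
      holevoCapacity (tensorPow (gadc γ 0) (n + 1)) := by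
  refine holevoCapacity_le_of_forall _ _ (holevoCapacity_nonneg _) ?_
  intro k q ρ hE
  have hE' : IsEnsemble q (fun a => (ρ a).submatrix (consE n).symm (consE n).symm) :=
    ⟨hE.1, hE.2.1, fun a => isState_submatrix _ (hE.2.2 a) _⟩
  obtain ⟨_, heq⟩ := holevoQuantity_succ_eq γ h0 h1 n q _ hE'
  have hcap := holevoQuantity_le_capacity (tensorPow (gadc γ 0) (n + 1))
    (fun σ hσ => tensorPow_isState γ 0 h0 h1 le_rfl zero_le_one (n + 1) σ hσ) q _ hE'
  rw [heq] at hcap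
  simpa using hcap

/-- **Superadditivity** (the easy direction): `χ(N) + χ(N^{⊗ n}) ≤ χ(N^{⊗ (n+1)})`. -/
theorem holevoCapacity_succ_ge (γ : ℝ) (h0 : 0 ≤ γ) (h1 : γ ≤ 1) (n : ℕ) :
    holevoCapacity (gadc γ 0) + holevoCapacity (tensorPow (gadc γ 0) n) ≤
      holevoCapacity (tensorPow (gadc γ 0) (n + 1)) :=
  (holevoCapacity_add_le_NM γ h0 h1 (goodMap_tensorPow γ h0 h1 n)).trans
    (holevoCapacity_NM_le_succ γ h0 h1 n)

theorem holevoCapacity_tensorPow_ge (γ : ℝ) (h0 : 0 ≤ γ) (h1 : γ ≤ 1) (n : ℕ) :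
    n * holevoCapacity (gadc γ 0) ≤ holevoCapacity (tensorPow (gadc γ 0) n) := by
  induction n with
  | zero => simpa using holevoCapacity_nonneg (tensorPow (gadc γ 0) 0)
  | succ n ih =>
    have h := holevoCapacity_succ_ge γ h0 h1 n
    push_cast
    linarith

end Vale.Agent.P358
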