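import Vale.Agent.P358.Channel
import Vale.Agent.P358.Main

/-!
Raw structural facts about `tensorPow`: linearity, compatibility with the adjoint, and
two-positivity (positivity on `2 × 2` block matrices) for the generalized amplitude damping channel.
-/

namespace Vale.Agent.P358

open Finset Matrix
open scoped ComplexOrder

section lin

variable (Φ : Matrix (Fin 2) (Fin 2) ℂ → Matrix (Fin 2) (Fin 2) ℂ) (n : ℕ)

theorem tensorPow_add (A B : Matrix (Fin n → Fin 2) (Fin n → Fin 2) ℂ) :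
    tensorPow Φ n (A + B) = tensorPow Φ n A + tensorPow Φ n B := by
  ext x y
  simp only [tensorPow, Matrix.add_apply, mul_add, Finset.sum_add_distrib]

theorem tensorPow_smul (c : ℂ) (A : Matrix (Fin n → Fin 2) (Fin n → Fin 2) ℂ) :
    tensorPow Φ n (c • A) = c • tensorPow Φ n A := by
  ext x y
  simp only [tensorPow, Matrix.smul_apply, smul_eq_mul, Finset.mul_sum]
  refine Finset.sum_congr rfl fun u _ => Finset.sum_congr rfl fun v _ => ?_
  ring

theorem tensorPow_zero : tensorPow Φ n 0 = 0 := by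
  ext x y
  simp [tensorPow]

theorem tensorPow_sum {ι : Type*} (s : Finset ι)
    (f : ι → Matrix (Fin n → Fin 2) (Fin n → Fin 2) ℂ) :
    tensorPow Φ n (∑ a ∈ s, f a) = ∑ a ∈ s, tensorPow Φ n (f a) := by
  classical
  induction s using Finset.induction_on with
  | empty => simp [tensorPow_zero]
  | insert a s ha ih => rw [Finset.sum_insert ha, Finset.sum_insert ha, tensorPow_add, ih]

end lin

theorem sum_fromBlocks {ι X Y : Type*} (s : Finset ι) (a : ι → Matrix X X ℂ)
    (b : ι → Matrix X Y ℂ) (c : ι → Matrix Y X ℂ) (d : ι → Matrix Y Y ℂ) :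
    ∑ j ∈ s, fromBlocks (a j) (b j) (c j) (d j) =
      fromBlocks (∑ j ∈ s, a j) (∑ j ∈ s, b j) (∑ j ∈ s, c j) (∑ j ∈ s, d j) := by
  ext (i | i) (k | k) <;> simp [Matrix.sum_apply]

theorem tensorPow_conjTranspose (γ ν : ℝ) (n : ℕ)
    (A : Matrix (Fin n → Fin 2) (Fin n → Fin 2) ℂ) :
    tensorPow (gadc γ ν) n Aᴴ = (tensorPow (gadc γ ν) n A)ᴴ := by
  have hsym : ∀ x y u v : Fin 2, tG (dG γ ν) (Real.sqrt (1 - γ)) x y u v =
      tG (dG γ ν) (Real.sqrt (1 - γ)) y x v u := by
    intro x y u v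
    fin_cases x <;> fin_cases y <;> fin_cases u <;> fin_cases v <;> simp [tG]
  ext x y
  rw [Matrix.conjTranspose_apply, tensorPow_apply, tensorPow_apply, star_sum, Finset.sum_comm]
  refine Finset.sum_congr rfl fun u _ => ?_
  rw [star_sum]
  refine Finset.sum_congr rfl fun v _ => ?_
  rw [star_mul', Matrix.conjTranspose_apply, RCLike.star_def, Complex.conj_ofReal]
  congr 2
  exact Finset.prod_congr rfl fun i _ => hsym _ _ _ _

theorem tensorPow_fromBlocks_posSemidef (γ ν : ℝ) (hγ0 : 0 ≤ γ) (hγ1 : γ ≤ 1) (hν0 : 0 ≤ ν)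
    (hν1 : ν ≤ 1) (n : ℕ) (A B C D : Matrix (Fin n → Fin 2) (Fin n → Fin 2) ℂ)
    (h : (fromBlocks A B C D).PosSemidef) :
    (fromBlocks (tensorPow (gadc γ ν) n A) (tensorPow (gadc γ ν) n B)
      (tensorPow (gadc γ ν) n C) (tensorPow (gadc γ ν) n D)).PosSemidef := by
  have key : fromBlocks (tensorPow (gadc γ ν) n A) (tensorPow (gadc γ ν) n B)
      (tensorPow (gadc γ ν) n C) (tensorPow (gadc γ ν) n D) =
      ∑ j, fromBlocks (Kn γ ν n j) 0 0 (Kn γ ν n j) * fromBlocks A B C D *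
        (fromBlocks (Kn γ ν n j) 0 0 (Kn γ ν n j))ᴴ := by
    simp only [fromBlocks_conjTranspose, fromBlocks_multiply, Matrix.zero_mul, Matrix.mul_zero,
      add_zero, zero_add, conjTranspose_zero]
    rw [sum_fromBlocks]
    simp only [tensorPow_eq_kraus γ ν hγ0 hγ1 hν0 hν1]
  rw [key]
  exact Matrix.posSemidef_sum _ fun j _ => h.mul_mul_conjTranspose_same _

end Vale.Agent.P358
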